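import Vale.Agent.H19.Sph.Defs

/-!
Sphere immersions: algebraic identities and elementary calculus facts.
-/

namespace Vale.Agent.H19.Sph

open scoped ContDiff

theorem Dex_mul_eq_Xi (gv gp w wp : ℝ) (h0 : 0 < w) (h1 : w < 1) :
    Dex gv gp w wp * (1 + 3 * w) = Xi gp w (Nex gv gp w wp) := by
  have h2 : (1 - w) ≠ 0 := by linarith
  have h3 : w ≠ 0 := h0.ne'
  unfold Dex Xi Nex
  field_simp
  ring

theorem Dex_neg (gv gp w wp : ℝ) : Dex gv (-gp) w (-wp) = Dex gv gp w wp := by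
  unfold Dex
  ring

theorem Xi_mono (gp w1 w2 N1 N2 : ℝ) (h0 : 0 < w1) (h12 : w1 ≤ w2) (h2 : w2 < 1)
    (hN : N2 ^ 2 ≤ N1 ^ 2) : Xi gp w1 N1 ≤ Xi gp w2 N2 := by
  unfold Xi
  have hw2 : 0 < w2 := lt_of_lt_of_le h0 h12
  have p1 : (0 : ℝ) ≤ (1 - w1) ^ 9 := pow_nonneg (by linarith) 9
  have p2 : (0 : ℝ) ≤ (1 - w2) ^ 9 := pow_nonneg (by linarith) 9
  have e1 : (1 - w2) ^ 9 ≤ (1 - w1) ^ 9 :=
    pow_le_pow_left₀ (by linarith) (by linarith) 9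
  have e2 : (1 - w2) ^ 9 * N2 ^ 2 ≤ (1 - w1) ^ 9 * N1 ^ 2 :=
    mul_le_mul e1 hN (sq_nonneg _) p1
  have e3 : (1 - w2) ^ 9 * N2 ^ 2 / (16 * w2) ≤ (1 - w1) ^ 9 * N1 ^ 2 / (16 * w1) := by
    have e4 : (1 - w2) ^ 9 * N2 ^ 2 / (16 * w2) ≤ (1 - w1) ^ 9 * N1 ^ 2 / (16 * w2) := by
      apply div_le_div_of_nonneg_right e2 (by positivity)
    have e5 : (1 - w1) ^ 9 * N1 ^ 2 / (16 * w2) ≤ (1 - w1) ^ 9 * N1 ^ 2 / (16 * w1) := by
      apply div_le_div_of_nonneg_left (by positivity) (by positivity) (by linarith)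
    linarith
  linarith

theorem hasDerivAt_Lam (w : ℝ) (hw : w ≠ 1) :
    HasDerivAt Lam ((1 + 3 * w) / (1 - w) ^ 5) w := by
  have h1 : (1 - w) ≠ 0 := sub_ne_zero.mpr (Ne.symm hw)
  have hd : HasDerivAt (fun x : ℝ => (1 - x) ^ 4) (4 * (1 - w) ^ 3 * (-1)) w := by
    have h0 : HasDerivAt (fun x : ℝ => 1 - x) (-1) w := by
      simpa using (hasDerivAt_id w).const_sub 1
    have := h0.fun_pow 4
    simpa using this
  have h := (hasDerivAt_id w).div hd (pow_ne_zero 4 h1)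
  have e : (1 * (1 - w) ^ 4 - id w * (4 * (1 - w) ^ 3 * (-1))) / ((1 - w) ^ 4) ^ 2
      = (1 + 3 * w) / (1 - w) ^ 5 := by
    simp only [id]
    field_simp
    ring
  rw [e] at h
  exact h

theorem Lam_pos {w : ℝ} (h0 : 0 < w) (h1 : w < 1) : 0 < Lam w := by
  unfold Lam
  have : 0 < (1 - w) ^ 4 := pow_pos (by linarith) 4
  positivity

theorem Lam_lt_Lam {w1 w2 : ℝ} (h0 : 0 < w1) (h12 : w1 < w2) (h2 : w2 < 1) :
    Lam w1 < Lam w2 := by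
  unfold Lam
  have p1 : 0 < (1 - w1) ^ 4 := pow_pos (by linarith) 4
  have p2 : 0 < (1 - w2) ^ 4 := pow_pos (by linarith) 4
  have e1 : (1 - w2) ^ 4 ≤ (1 - w1) ^ 4 := pow_le_pow_left₀ (by linarith) (by linarith) 4
  rw [div_lt_div_iff₀ p1 p2]
  nlinarith

/-- `Nex` in terms of the derivative of `p = Λ ∘ w`. -/
theorem Nex_eq_of_hasDerivAt (gv gp : ℝ) (w : ℝ → ℝ) (s wp pp : ℝ) (hw : HasDerivAt w wp s)
    (hw1 : w s ≠ 1) (hp : HasDerivAt (fun x => Lam (w x)) pp s) :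
    Nex gv gp (w s) wp = gv * pp - 6 * gp * Lam (w s) := by
  have h := (hasDerivAt_Lam (w s) hw1).comp s hw
  have e : pp = (1 + 3 * w s) / (1 - w s) ^ 5 * wp := hp.unique h
  unfold Nex Lam
  rw [e]

theorem hasDerivAt_gvG (k : ℝ → ℝ) (sk : ContDiff ℝ ∞ k) (s : ℝ) :
    HasDerivAt (gvG k) (gpG k s) s := by
  have dk : Differentiable ℝ k := sk.differentiable (by simp)
  have h1 : HasDerivAt (fun x : ℝ => x ^ 2) (2 * s) s := by
    simpa using hasDerivAt_pow 2 s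
  have h2 : HasDerivAt (fun x : ℝ => k (x ^ 2)) (deriv k (s ^ 2) * (2 * s)) s :=
    (dk (s ^ 2)).hasDerivAt.comp s h1
  have h3 : HasDerivAt (fun x : ℝ => 1 + x ^ 2 * k (x ^ 2))
      (2 * s * k (s ^ 2) + s ^ 2 * (deriv k (s ^ 2) * (2 * s))) s :=
    (h1.mul h2).const_add 1
  have h4 := (hasDerivAt_id s).mul h3
  have e : 1 * (1 + s ^ 2 * k (s ^ 2))
      + id s * (2 * s * k (s ^ 2) + s ^ 2 * (deriv k (s ^ 2) * (2 * s))) = gpG k s := by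
    unfold gpG
    simp only [id]
    ring
  rw [e] at h4
  exact h4

theorem hasDerivAt_wG (Wt : ℝ → ℝ) (sWt : ContDiff ℝ ∞ Wt) (s : ℝ) :
    HasDerivAt (wG Wt) (wpG Wt s) s := by
  have dW : Differentiable ℝ Wt := sWt.differentiable (by simp)
  have h1 : HasDerivAt (fun x : ℝ => x ^ 2) (2 * s) s := by
    simpa using hasDerivAt_pow 2 s
  have h2 : HasDerivAt (fun x : ℝ => Wt (x ^ 2)) (deriv Wt (s ^ 2) * (2 * s)) s :=
    (dW (s ^ 2)).hasDerivAt.comp s h1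
  have h3 := h1.mul h2
  have e : 2 * s * Wt (s ^ 2) + s ^ 2 * (deriv Wt (s ^ 2) * (2 * s)) = wpG Wt s := by
    unfold wpG
    ring
  rw [e] at h3
  exact h3

end Vale.Agent.H19.Sph
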