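import Vale.Agent.H19.Sph.Half

/-!
Sphere immersions: the global profile `w` on `(0, L)`, glued from the two halves.

Sketch. Apply `exists_half` to `(g, k)` and to `(fun s => g (L - s), kS)`, both with
`m = L / 3`, `M = 2 L / 3`, and `C = max` of the two thresholds. Put
`w s = if s < L / 2 then wN s else wS (L - s)`. On `(L / 3, 2 L / 3)` both branches equal
`Jinv (C * g s ^ 6)`, so `w = wN` on `(0, 2 L / 3)` and `w = wS (L - ·)` on `(L / 3, L)`; this
gives smoothness and, with `Dex_neg` and `deriv (fun s => f (L - s)) s = -deriv f (L - s)`, the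
positivity of the defect. Take `s0` the minimum of the two.
-/

namespace Vale.Agent.H19.Sph

open scoped ContDiff

theorem exists_w (L ε : ℝ) (hL : 0 < L) (hε : 0 < ε) (g k kS : ℝ → ℝ)
    (sg : ContDiff ℝ ∞ g) (sk : ContDiff ℝ ∞ k) (skS : ContDiff ℝ ∞ kS)
    (gN : ∀ s, |s| < ε → g s = gvG k s)
    (gS : ∀ s, |s - L| < ε → g s = gvG kS (L - s))
    (k0 : 0 < k 0) (kS0 : 0 < kS 0)
    (gpos : ∀ s, 0 < s → s < L → 0 < g s)
    (gd : ∀ s, 0 ≤ s → s ≤ L → |deriv g s| < 2) :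
    ∃ (w WN QN WS QS : ℝ → ℝ) (τN cN τS cS s0 : ℝ),
      PoleGerm k WN QN τN cN ∧ PoleGerm kS WS QS τS cS ∧
      0 < s0 ∧ s0 < L ∧ s0 < ε ∧ s0 ^ 2 < τN ∧ s0 ^ 2 < τS ∧
      ContDiffOn ℝ ∞ w (Set.Ioo 0 L) ∧
      (∀ s ∈ Set.Ioo 0 L, 0 < w s ∧ w s < 1 ∧
        0 < Dex (g s) (deriv g s) (w s) (deriv w s)) ∧
      (∀ s, 0 < s → s < s0 → w s = wG WN s) ∧
      (∀ s, 0 < s → s < s0 → w (L - s) = wG WS s) := by
  have hL3 : 0 < L / 3 := by positivity
  have hmM : L / 3 < 2 * L / 3 := by linarith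
  -- the north half
  obtain ⟨WN, QN, τN, cN, C₀N, hGN, hCN⟩ :=
    exists_half g k ε (L / 3) (2 * L / 3) hε hL3 hmM sg sk gN k0
      (fun s hs hsM => gpos s hs (by linarith)) (fun s hs hsM => gd s hs (by linarith))
  -- the south half, for the reflected function
  obtain ⟨gR, hgR⟩ : ∃ gR : ℝ → ℝ, gR = fun s => g (L - s) := ⟨_, rfl⟩
  have hgRv : ∀ s, gR s = g (L - s) := fun s => by rw [hgR]
  have hLL : ∀ s : ℝ, L - (L - s) = s := fun s => by ring
  have hgRL : ∀ s, gR (L - s) = g s := fun s => by rw [hgRv, hLL]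
  have sgR : ContDiff ℝ ∞ gR := by
    rw [hgR]
    exact sg.comp (contDiff_const.sub contDiff_id)
  have hdgR : ∀ s, deriv gR s = -deriv g (L - s) := by
    intro s
    rw [hgR]
    exact deriv_comp_const_sub g L s
  have gRN : ∀ s, |s| < ε → gR s = gvG kS s := by
    intro s hs
    have h1 : |L - s - L| < ε := by
      rw [show L - s - L = -s by ring, abs_neg]
      exact hs
    rw [hgRv, gS (L - s) h1, hLL]
  obtain ⟨WS, QS, τS, cS, C₀S, hGS, hCS⟩ :=
    exists_half gR kS ε (L / 3) (2 * L / 3) hε hL3 hmM sgR skS gRN kS0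
      (fun s hs hsM => by rw [hgRv]; exact gpos (L - s) (by linarith) (by linarith))
      (fun s hs hsM => by rw [hdgR, abs_neg]; exact gd (L - s) (by linarith) (by linarith))
  obtain ⟨C, hC⟩ : ∃ C : ℝ, C = max C₀N C₀S := ⟨_, rfl⟩
  obtain ⟨wN, s0N, h1N, h2N, h3N, h4N, swN, hwN, hwN0, hwNM⟩ :=
    hCN C (by rw [hC]; exact le_max_left _ _)
  obtain ⟨wS, s0S, h1S, h2S, h3S, h4S, swS, hwS, hwS0, hwSM⟩ :=
    hCS C (by rw [hC]; exact le_max_right _ _)
  obtain ⟨w, hw⟩ : ∃ w : ℝ → ℝ, w = fun s => if s < L / 2 then wN s else wS (L - s) :=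
    ⟨_, rfl⟩
  have hw1 : ∀ s, s < L / 2 → w s = wN s := by
    intro s h
    rw [hw]
    exact if_pos h
  have hw2 : ∀ s, ¬ s < L / 2 → w s = wS (L - s) := by
    intro s h
    rw [hw]
    exact if_neg h
  -- both branches agree on the middle third
  have hmid : ∀ s, L / 3 < s → s < 2 * L / 3 → wS (L - s) = wN s := by
    intro s hs0 hs1
    rw [hwSM (L - s) (by linarith) (by linarith), hwNM s (by linarith) hs1, hgRL]
  have hwA : ∀ s, 0 < s → s < 2 * L / 3 → w s = wN s := by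
    intro s hs0 hs1
    by_cases h : s < L / 2
    · exact hw1 s h
    · rw [hw2 s h]
      exact hmid s (by linarith [not_lt.mp h]) hs1
  have hwB : ∀ s, L / 3 < s → s < L → w s = wS (L - s) := by
    intro s hs0 hs1
    by_cases h : s < L / 2
    · rw [hw1 s h]
      exact (hmid s hs0 (by linarith)).symm
    · exact hw2 s h
  have hevA : ∀ s, 0 < s → s < 2 * L / 3 → w =ᶠ[nhds s] wN := by
    intro s hs0 hs1
    filter_upwards [Ioo_mem_nhds hs0 hs1] with y hy using hwA y hy.1 hy.2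
  have hevB : ∀ s, L / 3 < s → s < L → w =ᶠ[nhds s] fun y => wS (L - y) := by
    intro s hs0 hs1
    filter_upwards [Ioo_mem_nhds hs0 hs1] with y hy using hwB y hy.1 hy.2
  obtain ⟨s0, hs0⟩ : ∃ s0 : ℝ, s0 = min s0N s0S := ⟨_, rfl⟩
  have hs0N : s0 ≤ s0N := by
    rw [hs0]
    exact min_le_left _ _
  have hs0S : s0 ≤ s0S := by
    rw [hs0]
    exact min_le_right _ _
  have hs0pos : 0 < s0 := by
    rw [hs0]
    exact lt_min h1N h1S
  have hsqN : s0 ^ 2 ≤ s0N ^ 2 := pow_le_pow_left₀ hs0pos.le hs0N 2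
  have hsqS : s0 ^ 2 ≤ s0S ^ 2 := pow_le_pow_left₀ hs0pos.le hs0S 2
  refine ⟨w, WN, QN, WS, QS, τN, cN, τS, cS, s0, hGN, hGS, hs0pos, by linarith, by linarith,
    by linarith, by linarith, ?_, ?_, ?_, ?_⟩
  · -- smoothness
    intro s hs
    apply ContDiffAt.contDiffWithinAt
    by_cases h : s < 2 * L / 3
    · have h1 : ContDiffAt ℝ ∞ wN s := swN.contDiffAt (Ioo_mem_nhds hs.1 h)
      exact h1.congr_of_eventuallyEq (hevA s hs.1 h)
    · have hs3 : L / 3 < s := by linarith [not_lt.mp h]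
      have h1 : ContDiffAt ℝ ∞ wS (L - s) :=
        swS.contDiffAt (Ioo_mem_nhds (by linarith [hs.2]) (by linarith))
      have h2 : ContDiffAt ℝ ∞ (fun y => wS (L - y)) s :=
        h1.comp s (contDiffAt_const.sub contDiffAt_id)
      exact h2.congr_of_eventuallyEq (hevB s hs3 hs.2)
  · -- values and defect
    intro s hs
    by_cases h : s < 2 * L / 3
    · obtain ⟨a1, a2, a3⟩ := hwN s ⟨hs.1, h⟩
      have e1 : w s = wN s := hwA s hs.1 h
      have e2 : deriv w s = deriv wN s := (hevA s hs.1 h).deriv_eq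
      rw [e1, e2]
      exact ⟨a1, a2, a3⟩
    · have hs3 : L / 3 < s := by linarith [not_lt.mp h]
      obtain ⟨a1, a2, a3⟩ := hwS (L - s) ⟨by linarith [hs.2], by linarith⟩
      have e1 : w s = wS (L - s) := hwB s hs3 hs.2
      have e2 : deriv w s = -deriv wS (L - s) := by
        rw [(hevB s hs3 hs.2).deriv_eq]
        exact deriv_comp_const_sub wS L s
      have e4 : deriv gR (L - s) = -deriv g s := by rw [hdgR, hLL]
      rw [hgRL, e4] at a3
      rw [e1, e2]
      refine ⟨a1, a2, ?_⟩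
      have h5 := Dex_neg (g s) (-deriv g s) (wS (L - s)) (deriv wS (L - s))
      rw [neg_neg] at h5
      rw [h5]
      exact a3
  · intro s hs hss0
    rw [hwA s hs (by linarith)]
    exact hwN0 s hs (by linarith)
  · intro s hs hss0
    rw [hwB (L - s) (by linarith) (by linarith), hLL]
    exact hwS0 s hs (by linarith)

end Vale.Agent.H19.Sph
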