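import Mathlib

/-!
Hadamard's lemma in one variable: a smooth `f` is `f 0 + t q(t)` with `q` smooth.

Proof: `q t = ∫ x in 0..1, f' (x t)`.  Smoothness of the parametric integrals
`t ↦ ∫ x in 0..1, x ^ k * g (x t)` (`g` smooth) by induction on the order, differentiating
under the integral sign (the derivative is the same kind of integral for `g'`, `k + 1`).
-/

namespace Vale.Agent.H19.Sph

open scoped ContDiff
open MeasureTheory

private theorem hasDerivAt_pint (g : ℝ → ℝ) (hg : ContDiff ℝ ∞ g) (k : ℕ) (t₀ : ℝ) :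
    HasDerivAt (fun t : ℝ => ∫ x in (0:ℝ)..1, x ^ k * g (x * t))
      (∫ x in (0:ℝ)..1, x ^ (k + 1) * deriv g (x * t₀)) t₀ := by
  have hg' : ContDiff ℝ ∞ (deriv g) := (contDiff_infty_iff_deriv.mp hg).2
  have hgc : Continuous g := hg.continuous
  have hg'c : Continuous (deriv g) := hg'.continuous
  have hgd : Differentiable ℝ g := (contDiff_infty_iff_deriv.mp hg).1
  obtain ⟨M, hM⟩ : ∃ M, ∀ y ∈ Set.Icc (-(|t₀| + 1)) (|t₀| + 1), ‖deriv g y‖ ≤ M :=
    (isCompact_Icc (a := -(|t₀| + 1)) (b := |t₀| + 1)).exists_bound_of_continuousOn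
      hg'c.continuousOn
  have key := intervalIntegral.hasDerivAt_integral_of_dominated_loc_of_deriv_le
    (μ := volume) (a := 0) (b := 1) (F := fun t x => x ^ k * g (x * t))
    (F' := fun t x => x ^ (k + 1) * deriv g (x * t)) (x₀ := t₀) (s := Metric.ball t₀ 1)
    (bound := fun _ => M)
    (Metric.ball_mem_nhds t₀ one_pos)
    (Filter.Eventually.of_forall fun t => by
      have : Continuous (fun x : ℝ => x ^ k * g (x * t)) := by fun_prop
      exact this.aestronglyMeasurable)
    (by
      have : Continuous (fun x : ℝ => x ^ k * g (x * t₀)) := by fun_prop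
      exact this.intervalIntegrable _ _)
    (by
      have : Continuous (fun x : ℝ => x ^ (k + 1) * deriv g (x * t₀)) := by fun_prop
      exact this.aestronglyMeasurable)
    (Filter.Eventually.of_forall fun x hx t ht => by
      rw [Set.uIoc_of_le zero_le_one] at hx
      obtain ⟨hx0, hx1⟩ := hx
      have ht' : |t - t₀| < 1 := by
        have := Metric.mem_ball.mp ht
        rwa [Real.dist_eq] at this
      have htb : |t| ≤ |t₀| + 1 := by
        have h1 : |t| ≤ |t - t₀| + |t₀| := by
          have := abs_add_le (t - t₀) t₀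
          simpa using this
        linarith
      have hxt : |x * t| ≤ |t₀| + 1 := by
        rw [abs_mul, abs_of_pos hx0]
        calc x * |t| ≤ 1 * |t| := mul_le_mul_of_nonneg_right hx1 (abs_nonneg t)
          _ = |t| := one_mul _
          _ ≤ |t₀| + 1 := htb
      have hmem : x * t ∈ Set.Icc (-(|t₀| + 1)) (|t₀| + 1) := by
        have := abs_le.mp hxt
        exact ⟨this.1, this.2⟩
      have hb := hM (x * t) hmem
      have hxp : x ^ (k + 1) ≤ 1 := pow_le_one₀ hx0.le hx1
      have hxp0 : 0 ≤ x ^ (k + 1) := pow_nonneg hx0.le _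
      rw [norm_mul, Real.norm_of_nonneg hxp0]
      calc x ^ (k + 1) * ‖deriv g (x * t)‖ ≤ 1 * ‖deriv g (x * t)‖ :=
            mul_le_mul_of_nonneg_right hxp (norm_nonneg _)
        _ = ‖deriv g (x * t)‖ := one_mul _
        _ ≤ M := hb)
    intervalIntegrable_const
    (Filter.Eventually.of_forall fun x _ t _ => by
      have h1 : HasDerivAt (fun t : ℝ => x * t) x t := by
        simpa using (hasDerivAt_id t).const_mul x
      have h2 : HasDerivAt g (deriv g (x * t)) (x * t) := (hgd (x * t)).hasDerivAt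
      have h3 : HasDerivAt (fun t : ℝ => g (x * t)) (deriv g (x * t) * x) t :=
        HasDerivAt.comp t h2 h1
      have h4 := h3.const_mul (x ^ k)
      have he : x ^ k * (deriv g (x * t) * x) = x ^ (k + 1) * deriv g (x * t) := by ring
      rw [he] at h4
      exact h4)
  exact key.2

private theorem contDiff_pint : ∀ (n : ℕ) (g : ℝ → ℝ), ContDiff ℝ ∞ g → ∀ k : ℕ,
    ContDiff ℝ n (fun t : ℝ => ∫ x in (0:ℝ)..1, x ^ k * g (x * t)) := by
  intro n
  induction n with
  | zero =>
    intro g hg k
    have hgc : Continuous g := hg.continuous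
    have hc : Continuous (Function.uncurry (fun (t x : ℝ) => x ^ k * g (x * t))) := by
      unfold Function.uncurry
      fun_prop
    have := intervalIntegral.continuous_parametric_intervalIntegral_of_continuous'
      (μ := volume) hc 0 1
    exact contDiff_zero.2 this
  | succ n ih =>
    intro g hg k
    have hg' : ContDiff ℝ ∞ (deriv g) := (contDiff_infty_iff_deriv.mp hg).2
    have hd : ∀ t₀, HasDerivAt (fun t : ℝ => ∫ x in (0:ℝ)..1, x ^ k * g (x * t))
      (∫ x in (0:ℝ)..1, x ^ (k + 1) * deriv g (x * t₀)) t₀ := hasDerivAt_pint g hg k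
    have hderiv : deriv (fun t : ℝ => ∫ x in (0:ℝ)..1, x ^ k * g (x * t)) =
        fun t => ∫ x in (0:ℝ)..1, x ^ (k + 1) * deriv g (x * t) :=
      funext fun t => (hd t).deriv
    have hcast : ((n + 1 : ℕ) : ℕ∞ω) = (n : ℕ∞ω) + 1 := by norm_cast
    rw [hcast, contDiff_succ_iff_deriv]
    refine ⟨fun t => (hd t).differentiableAt, ?_, ?_⟩
    · intro h
      exact absurd h (by simp)
    · rw [hderiv]
      exact ih (deriv g) hg' (k + 1)

theorem hadamard (f : ℝ → ℝ) (hf : ContDiff ℝ ∞ f) :
    ∃ q : ℝ → ℝ, ContDiff ℝ ∞ q ∧ ∀ t, f t = f 0 + t * q t := by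
  have hf' : ContDiff ℝ ∞ (deriv f) := (contDiff_infty_iff_deriv.mp hf).2
  have hfd : Differentiable ℝ f := (contDiff_infty_iff_deriv.mp hf).1
  refine ⟨fun t => ∫ x in (0:ℝ)..1, deriv f (x * t), ?_, ?_⟩
  · rw [contDiff_infty]
    intro n
    have := contDiff_pint n (deriv f) hf' 0
    simpa using this
  · intro t
    have h1 : t * ∫ x in (0:ℝ)..1, deriv f (x * t) = ∫ x in (0:ℝ) * t..1 * t, deriv f x :=
      intervalIntegral.mul_integral_comp_mul_right t
    have h2 : ∫ x in (0:ℝ)..t, deriv f x = f t - f 0 :=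
      intervalIntegral.integral_deriv_eq_sub (fun x _ => hfd x)
        (hf'.continuous.intervalIntegrable _ _)
    simp only [zero_mul, one_mul] at h1
    rw [h1, h2]
    ring

end Vale.Agent.H19.Sph
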