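import Vale.Agent.H55.Sph.Defs
import Vale.Agent.H19.Sph.Glue
import Vale.Agent.H19.Sph.Hadamard

/-!
Sphere immersions: the global profile of `Glue.lean` in the form of the structure
`Vale.Agent.H55.Sph.WProfile`.
-/

namespace Vale.Agent.H19.Sph

open scoped ContDiff

theorem Dfun_eq_Dex (a b c d : ℝ) : Vale.Agent.H55.Sph.Dfun a b c d = Dex a b c d := rfl

/-- The defect of a function pair agreeing near `s` with the pole germ. -/
theorem Dex_eq_of_germ' (k Wt Q : ℝ → ℝ) (τ cN : ℝ) (sk : ContDiff ℝ ∞ k)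
    (hG : PoleGerm k Wt Q τ cN) (g w : ℝ → ℝ) (s : ℝ) (hs : 0 < s) (hsτ : s ^ 2 < τ)
    (hg : ∀ᶠ x in nhds s, g x = gvG k x) (hw : ∀ᶠ x in nhds s, w x = wG Wt x) :
    Dex (g s) (deriv g s) (w s) (deriv w s) = s ^ 6 * Q (s ^ 2) := by
  have e1 : deriv g s = gpG k s :=
    (Filter.EventuallyEq.deriv_eq hg).trans (hasDerivAt_gvG k sk s).deriv
  have e2 : deriv w s = wpG Wt s :=
    (Filter.EventuallyEq.deriv_eq hw).trans (hasDerivAt_wG Wt hG.sWt s).deriv
  rw [hg.self_of_nhds, hw.self_of_nhds, e1, e2]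
  exact hG.hD s hs hsτ

theorem exists_wprofile (L ε : ℝ) (g h hS : ℝ → ℝ)
    (hd : Vale.Agent.H55.Sph.SphData L ε g h hS) :
    ∃ (w ωN QN ωS QS : ℝ → ℝ) (η : ℝ), Vale.Agent.H55.Sph.WProfile L g w ωN QN ωS QS η := by
  obtain ⟨k, sk, hk⟩ := hadamard h hd.sh
  obtain ⟨kS, skS, hkS⟩ := hadamard hS hd.shS
  have key : ∀ (f q : ℝ → ℝ), ContDiff ℝ ∞ q → (∀ t, f t = f 0 + t * q t) → q 0 = deriv f 0 := by
    intro f q sq hq
    have dq : Differentiable ℝ q := sq.differentiable (by simp)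
    have h1 : HasDerivAt (fun t : ℝ => f 0 + t * q t) (1 * q 0 + 0 * deriv q 0) 0 :=
      ((hasDerivAt_id (0 : ℝ)).mul (dq 0).hasDerivAt).const_add (f 0)
    have e : f = fun t : ℝ => f 0 + t * q t := funext hq
    rw [← e] at h1
    rw [h1.deriv]
    ring
  have k0 : 0 < k 0 := by rw [key h k sk hk]; exact hd.KN
  have kS0 : 0 < kS 0 := by rw [key hS kS skS hkS]; exact hd.KS
  have gN : ∀ s, |s| < ε → g s = gvG k s := by
    intro s hs
    rw [hd.gN s hs, hk (s ^ 2), hd.h0]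
    rfl
  have gS : ∀ s, |s - L| < ε → g s = gvG kS (L - s) := by
    intro s hs
    rw [hd.gS s hs, hkS ((L - s) ^ 2), hd.hS0]
    rfl
  obtain ⟨w, WN, QN, WS, QS, τN, cN, τS, cS, s0, hGN, hGS, hs0, hs0L, hs0ε, hs0N, hs0S, sw, hw,
    hwN, hwS⟩ := exists_w L ε hd.Lpos hd.εpos g k kS hd.sg sk skS gN gS k0 kS0 hd.gpos hd.slope
  have hlt : ∀ s, 0 < s → s ^ 2 < s0 ^ 2 → s < s0 := fun s hs h => by
    by_contra hcon
    push Not at hcon
    nlinarith
  have evN : ∀ s, 0 < s → s < s0 → ∀ᶠ x in nhds s, g x = gvG k x := fun s hs hss0 => by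
    have hmem : {x : ℝ | |x| < ε} ∈ nhds s :=
      (isOpen_lt continuous_abs continuous_const).mem_nhds
        (by show |s| < ε; rw [abs_of_pos hs]; linarith)
    exact Filter.mem_of_superset hmem (fun x hx => gN x hx)
  have evNw : ∀ s, 0 < s → s < s0 → ∀ᶠ x in nhds s, w x = wG WN x := fun s hs hss0 => by
    have hmem : Set.Ioo (0 : ℝ) s0 ∈ nhds s := isOpen_Ioo.mem_nhds ⟨hs, hss0⟩
    exact Filter.mem_of_superset hmem (fun x hx => hwN x hx.1 hx.2)
  have evS : ∀ s, 0 < s → s < s0 → ∀ᶠ x in nhds s, g (L - x) = gvG kS x := fun s hs hss0 => by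
    have hmem : {x : ℝ | |x| < ε} ∈ nhds s :=
      (isOpen_lt continuous_abs continuous_const).mem_nhds
        (by show |s| < ε; rw [abs_of_pos hs]; linarith)
    refine Filter.mem_of_superset hmem (fun x hx => ?_)
    have hx' : |L - x - L| < ε := by
      have : L - x - L = -x := by ring
      rw [this, abs_neg]
      exact hx
    have := gS (L - x) hx'
    rw [sub_sub_cancel] at this
    exact this
  have evSw : ∀ s, 0 < s → s < s0 → ∀ᶠ x in nhds s, w (L - x) = wG WS x := fun s hs hss0 => by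
    have hmem : Set.Ioo (0 : ℝ) s0 ∈ nhds s := isOpen_Ioo.mem_nhds ⟨hs, hss0⟩
    exact Filter.mem_of_superset hmem (fun x hx => hwS x hx.1 hx.2)
  have memN : ∀ t : ℝ, |t| < s0 ^ 2 → t ∈ Set.Ioo (-τN) τN := fun t ht => by
    have := abs_lt.mp ht
    exact ⟨by linarith, by linarith⟩
  have memS : ∀ t : ℝ, |t| < s0 ^ 2 → t ∈ Set.Ioo (-τS) τS := fun t ht => by
    have := abs_lt.mp ht
    exact ⟨by linarith, by linarith⟩
  refine ⟨w, WN, QN, WS, QS, s0 ^ 2, ?_⟩
  exact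
    { ηpos := by positivity
      sw := sw
      w01 := fun s h1 h2 => ⟨(hw s ⟨h1, h2⟩).1, (hw s ⟨h1, h2⟩).2.1⟩
      Dpos := fun s h1 h2 => by
        rw [Dfun_eq_Dex]
        exact (hw s ⟨h1, h2⟩).2.2
      sωN := hGN.sWt.contDiffOn
      sQN := hGN.sQ.mono (Set.Ioo_subset_Ioo (by linarith) hs0N.le)
      posN := fun t ht => ⟨hGN.Wpos t (memN t ht), hGN.Qpos t (memN t ht), hGN.Wlt t (memN t ht)⟩
      wN := fun s hs hsη => by
        rw [hwN s hs (hlt s hs hsη)]
        rfl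
      DN := fun s hs hsη => by
        rw [Dfun_eq_Dex]
        exact Dex_eq_of_germ' k WN QN τN cN sk hGN g w s hs (lt_trans hsη hs0N)
          (evN s hs (hlt s hs hsη)) (evNw s hs (hlt s hs hsη))
      sωS := hGS.sWt.contDiffOn
      sQS := hGS.sQ.mono (Set.Ioo_subset_Ioo (by linarith) hs0S.le)
      posS := fun t ht => ⟨hGS.Wpos t (memS t ht), hGS.Qpos t (memS t ht), hGS.Wlt t (memS t ht)⟩
      wS := fun s hs hsη => by
        rw [hwS s hs (hlt s hs hsη)]
        rfl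
      DS := fun s hs hsη => by
        rw [Dfun_eq_Dex]
        have h := Dex_eq_of_germ' kS WS QS τS cS skS hGS (fun x => g (L - x))
          (fun x => w (L - x)) s hs (lt_trans hsη hs0S) (evS s hs (hlt s hs hsη))
          (evSw s hs (hlt s hs hsη))
        rw [deriv_comp_const_sub, deriv_comp_const_sub, Dex_neg] at h
        exact h }

end Vale.Agent.H19.Sph
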