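import Mathlib

/-!
Sphere immersions: a smooth cutoff.
-/

namespace Vale.Agent.H19.Sph

open scoped ContDiff

theorem exists_cutoff (δ : ℝ) (hδ : 0 < δ) :
    ∃ χ : ℝ → ℝ, ContDiff ℝ ∞ χ ∧ (∀ s, s ≤ δ → χ s = 1) ∧ (∀ s, 2 * δ ≤ s → χ s = 0) ∧
      (∀ s, 0 ≤ χ s) ∧ (∀ s, χ s ≤ 1) := by
  refine ⟨fun s => Real.smoothTransition ((2 * δ - s) / δ), ?_, ?_, ?_, ?_, ?_⟩
  · have h1 : ContDiff ℝ ∞ (fun s : ℝ => (2 * δ - s) / δ) :=
      (contDiff_const.sub contDiff_id).div_const δ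
    exact Real.smoothTransition.contDiff.comp h1
  · intro s hs
    apply Real.smoothTransition.one_of_one_le
    rw [le_div_iff₀ hδ]
    linarith
  · intro s hs
    apply Real.smoothTransition.zero_of_nonpos
    apply div_nonpos_of_nonpos_of_nonneg _ hδ.le
    linarith
  · intro s
    exact Real.smoothTransition.nonneg _
  · intro s
    exact Real.smoothTransition.le_one _

end Vale.Agent.H19.Sph
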