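import Mathlib

/-!
Sphere immersions with weights `(1, 2)`: shared definitions.

For a rotationally symmetric metric `ds² + g(s)² dθ²` the equivariant ansatz
`Φ(s, θ) = (ρ₁ e^{i(θ + φ₁)}, ρ₂ e^{i(2θ + φ₂)})` with `ρ₁ = g √(1 - w)`, `ρ₂ = (g / 2) √w`
reduces the isometric immersion problem to the positivity of the defect `Dex` of a profile
`w : (0, L) → (0, 1)`, with prescribed germs at the two poles.
-/

namespace Vale.Agent.H19.Sph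

open scoped ContDiff

/-- `Λ(w) = w / (1 - w)⁴`. -/
noncomputable def Lam (w : ℝ) : ℝ := w / (1 - w) ^ 4

/-- The defect `1 - ρ₁'² - ρ₂'²` for `ρ₁ = g √(1 - w)`, `ρ₂ = (g / 2) √w`, in terms of the values
`gv = g s`, `gp = g' s`, `w = w s`, `wp = w' s`. -/
noncomputable def Dex (gv gp w wp : ℝ) : ℝ :=
  1 - gp ^ 2 * (1 - 3 * w / 4) + 3 / 4 * gv * gp * wp
    - gv ^ 2 * wp ^ 2 * (1 + 3 * w) / (16 * w * (1 - w))

/-- `N = g p' - 6 g' p` for `p = Λ(w)`, in terms of the values of `g, g', w, w'`. -/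
noncomputable def Nex (gv gp w wp : ℝ) : ℝ :=
  gv * ((1 + 3 * w) / (1 - w) ^ 5 * wp) - 6 * gp * (w / (1 - w) ^ 4)

/-- `(1 + 3 w)` times the defect, as a function of `g'`, `w` and `N`. -/
noncomputable def Xi (gp w N : ℝ) : ℝ :=
  1 + 3 * w - gp ^ 2 - (1 - w) ^ 9 * N ^ 2 / (16 * w)

/-- The four real components of the profile. -/
noncomputable def bC (g w φ : ℝ → ℝ) (x : ℝ) : ℝ := g x * Real.sqrt (1 - w x) * Real.cos (φ x)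

noncomputable def bS (g w φ : ℝ → ℝ) (x : ℝ) : ℝ := g x * Real.sqrt (1 - w x) * Real.sin (φ x)

noncomputable def dC (g w φ : ℝ → ℝ) (x : ℝ) : ℝ := g x / 2 * Real.sqrt (w x) * Real.cos (φ x)

noncomputable def dS (g w φ : ℝ → ℝ) (x : ℝ) : ℝ := g x / 2 * Real.sqrt (w x) * Real.sin (φ x)

/-- The germ of `g` at a pole: `s (1 + s² k(s²))`. -/
noncomputable def gvG (k : ℝ → ℝ) (s : ℝ) : ℝ := s * (1 + s ^ 2 * k (s ^ 2))

/-- The derivative of `gvG k`. -/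
noncomputable def gpG (k : ℝ → ℝ) (s : ℝ) : ℝ :=
  (1 + s ^ 2 * k (s ^ 2)) + 2 * s ^ 2 * (k (s ^ 2) + s ^ 2 * deriv k (s ^ 2))

/-- The germ of the profile `w` at a pole: `s² Wt(s²)`. -/
noncomputable def wG (Wt : ℝ → ℝ) (s : ℝ) : ℝ := s ^ 2 * Wt (s ^ 2)

/-- The derivative of `wG Wt`. -/
noncomputable def wpG (Wt : ℝ → ℝ) (s : ℝ) : ℝ :=
  2 * s * Wt (s ^ 2) + 2 * s ^ 3 * deriv Wt (s ^ 2)

/-- Germ data at a pole where `g s = s (1 + s² k(s²))`: a profile germ `w = s² Wt(s²)` whose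
defect is `s⁶ Q(s²)` with `Q > 0`, and whose `N` is `≤ -cN s²`. -/
structure PoleGerm (k Wt Q : ℝ → ℝ) (τ cN : ℝ) : Prop where
  τpos : 0 < τ
  cNpos : 0 < cN
  sWt : ContDiff ℝ ∞ Wt
  sQ : ContDiffOn ℝ ∞ Q (Set.Ioo (-τ) τ)
  hpos : ∀ t ∈ Set.Ioo (-τ) τ, 0 < 1 + t * k t
  hle : ∀ t ∈ Set.Ioo (-τ) τ, 1 + t * k t ≤ 2
  Wpos : ∀ t ∈ Set.Ioo (-τ) τ, 0 < Wt t
  Wlt : ∀ t ∈ Set.Ioo (-τ) τ, t * Wt t < 1
  Qpos : ∀ t ∈ Set.Ioo (-τ) τ, 0 < Q t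
  hD : ∀ s, 0 < s → s ^ 2 < τ →
    Dex (gvG k s) (gpG k s) (wG Wt s) (wpG Wt s) = s ^ 6 * Q (s ^ 2)
  hN : ∀ s, 0 < s → s ^ 2 < τ →
    Nex (gvG k s) (gpG k s) (wG Wt s) (wpG Wt s) ≤ -cN * s ^ 2

end Vale.Agent.H19.Sph
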