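import Vale.Agent.H19.Sph.Alg
import Vale.Agent.H19.Sph.GermAlg

/-!
Sphere immersions: existence of the pole germ.

Sketch. Put `Wt t = 3 k t + t (k' t / 3 - 4 (k t)²) + om2 t²` (so that
`deriv Wt t = 3 k' t + (k' t / 3 - 4 (k t)²) + t (k'' t / 3 - 8 k t k' t) + 2 om2 t`) with
`om2` so large that `Ntilde 0 (k 0) (k' 0) (k'' 0) om2 > 0` (`Ntilde_zero`; `k 0 > 0`), and
`Q t = Ntilde t (k t) (k' t) (k'' t) om2 / (4 Wt t (1 - t Wt t))`. By `numD_eq` (with `t = s²`),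
after clearing denominators, `Dex (gvG k s) (gpG k s) (wG Wt s) (wpG Wt s) = s⁶ Q(s²)`.
Moreover `Nex (...) = s² n(s²)` with
`n t = (2 h (1 + 3 W) Wd - 6 gp Wt (1 - W)) / (1 - W)⁵` (`h = 1 + t k`, `W = t Wt`,
`Wd = Wt + t Wt'`, `gp = h + 2 t (k + t k')`), continuous at `0` with `n 0 = -12 k 0 < 0`.
Take `cN = 6 k 0` and `τ` small by continuity at `0` of `h`, `Wt`, `Q`, `n`.
-/

namespace Vale.Agent.H19.Sph

open scoped ContDiff

/-- Algebra behind `hD`: the defect of the germ from the numerator identity. -/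
theorem germ_D_core (s a b W0 Wp NN : ℝ) (hs : s ≠ 0) (hW0 : W0 ≠ 0)
    (h1 : 1 - s ^ 2 * W0 ≠ 0)
    (key : 4 * W0 * (1 - s ^ 2 * W0)
          * (1 - ((1 + s ^ 2 * a) + 2 * s ^ 2 * (a + s ^ 2 * b)) ^ 2
                * (1 - 3 / 4 * (s ^ 2 * W0))
              + 3 / 2 * s ^ 2 * (1 + s ^ 2 * a) * ((1 + s ^ 2 * a) + 2 * s ^ 2 * (a + s ^ 2 * b))
                * (W0 + s ^ 2 * Wp))
        - s ^ 2 * (1 + s ^ 2 * a) ^ 2 * (W0 + s ^ 2 * Wp) ^ 2 * (1 + 3 * (s ^ 2 * W0))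
      = (s ^ 2) ^ 3 * NN) :
    Dex (s * (1 + s ^ 2 * a)) ((1 + s ^ 2 * a) + 2 * s ^ 2 * (a + s ^ 2 * b)) (s ^ 2 * W0)
        (2 * s * W0 + 2 * s ^ 3 * Wp)
      = s ^ 6 * (NN / (4 * W0 * (1 - s ^ 2 * W0))) := by
  have hden2 : 4 * W0 * (1 - s ^ 2 * W0) ≠ 0 := mul_ne_zero (mul_ne_zero (by norm_num) hW0) h1
  rw [← mul_div_assoc, eq_div_iff hden2]
  unfold Dex
  have e : (s * (1 + s ^ 2 * a)) ^ 2 * (2 * s * W0 + 2 * s ^ 3 * Wp) ^ 2
          * (1 + 3 * (s ^ 2 * W0)) / (16 * (s ^ 2 * W0) * (1 - s ^ 2 * W0))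
          * (4 * W0 * (1 - s ^ 2 * W0))
      = s ^ 2 * (1 + s ^ 2 * a) ^ 2 * (W0 + s ^ 2 * Wp) ^ 2 * (1 + 3 * (s ^ 2 * W0)) := by
    field_simp
    ring
  linear_combination key - e

/-- Algebra behind `hN`. -/
theorem germ_N_core (s a b W0 Wp : ℝ) (h1 : 1 - s ^ 2 * W0 ≠ 0) :
    Nex (s * (1 + s ^ 2 * a)) ((1 + s ^ 2 * a) + 2 * s ^ 2 * (a + s ^ 2 * b)) (s ^ 2 * W0)
        (2 * s * W0 + 2 * s ^ 3 * Wp)
      = s ^ 2 * ((2 * (1 + s ^ 2 * a) * (1 + 3 * (s ^ 2 * W0)) * (W0 + s ^ 2 * Wp)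
          - 6 * ((1 + s ^ 2 * a) + 2 * s ^ 2 * (a + s ^ 2 * b)) * W0 * (1 - s ^ 2 * W0))
          / (1 - s ^ 2 * W0) ^ 5) := by
  unfold Nex
  field_simp

theorem exists_poleGerm (k : ℝ → ℝ) (sk : ContDiff ℝ ∞ k) (k0 : 0 < k 0) :
    ∃ (Wt Q : ℝ → ℝ) (τ cN : ℝ), PoleGerm k Wt Q τ cN := by
  have sk1 : ContDiff ℝ ∞ (deriv k) := (contDiff_infty_iff_deriv.mp sk).2
  have sk2 : ContDiff ℝ ∞ (deriv (deriv k)) := (contDiff_infty_iff_deriv.mp sk1).2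
  have ck : Continuous k := sk.continuous
  have ck1 : Continuous (deriv k) := sk1.continuous
  have ck2 : Continuous (deriv (deriv k)) := sk2.continuous
  have dk : ∀ t, HasDerivAt k (deriv k t) t :=
    fun t => (sk.differentiable (by simp) t).hasDerivAt
  have dk1 : ∀ t, HasDerivAt (deriv k) (deriv (deriv k) t) t :=
    fun t => (sk1.differentiable (by simp) t).hasDerivAt
  -- the constant
  obtain ⟨om2, hom2⟩ : ∃ om2 : ℝ, Ntilde 0 (k 0) (deriv k 0) (deriv (deriv k) 0) om2 = 1 := by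
    refine ⟨(1 - (4 * k 0 * deriv (deriv k) 0 - 64 / 3 * k 0 ^ 2 * deriv k 0 - 304 * k 0 ^ 4
      - 100 / 9 * deriv k 0 ^ 2)) / (48 * k 0), ?_⟩
    rw [Ntilde_zero]
    field_simp
    ring
  -- the functions
  obtain ⟨W, hW⟩ : ∃ W : ℝ → ℝ,
      W = fun t => 3 * k t + t * (deriv k t / 3 - 4 * k t ^ 2) + om2 * t ^ 2 := ⟨_, rfl⟩
  obtain ⟨Wp, hWp⟩ : ∃ Wp : ℝ → ℝ,
      Wp = fun t => 3 * deriv k t + (deriv k t / 3 - 4 * k t ^ 2)
        + t * (deriv (deriv k) t / 3 - 8 * k t * deriv k t) + 2 * om2 * t := ⟨_, rfl⟩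
  obtain ⟨NN, hNN⟩ : ∃ NN : ℝ → ℝ,
      NN = fun t => Ntilde t (k t) (deriv k t) (deriv (deriv k) t) om2 := ⟨_, rfl⟩
  have sW : ContDiff ℝ ∞ W := by
    rw [hW]
    fun_prop
  have sNN : ContDiff ℝ ∞ NN := by
    rw [hNN]
    unfold Ntilde NtC0 NtC1 NtC2 NtC3 NtC4 NtC5 NtC6 NtC7 NtC8 NtC9
    fun_prop
  have cW : Continuous W := sW.continuous
  have cWp : Continuous Wp := by
    rw [hWp]
    fun_prop
  have cNN : Continuous NN := sNN.continuous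
  obtain ⟨nf, hnf⟩ : ∃ nf : ℝ → ℝ,
      nf = fun t => (2 * (1 + t * k t) * (1 + 3 * (t * W t)) * (W t + t * Wp t)
          - 6 * ((1 + t * k t) + 2 * t * (k t + t * deriv k t)) * W t * (1 - t * W t))
          / (1 - t * W t) ^ 5 := ⟨_, rfl⟩
  have dW : ∀ t, HasDerivAt W (Wp t) t := by
    intro t
    have h : HasDerivAt (fun t => 3 * k t + t * (deriv k t / 3 - 4 * k t ^ 2) + om2 * t ^ 2)
        (3 * deriv k t + (1 * (deriv k t / 3 - 4 * k t ^ 2)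
          + t * (deriv (deriv k) t / 3 - 4 * (((2 : ℕ) : ℝ) * k t ^ (2 - 1) * deriv k t)))
          + om2 * (((2 : ℕ) : ℝ) * t ^ (2 - 1) * 1)) t :=
      (((dk t).const_mul 3).add ((hasDerivAt_id' t).mul
        (((dk1 t).div_const 3).sub (((dk t).pow 2).const_mul 4)))).add
        (((hasDerivAt_id' t).pow 2).const_mul om2)
    have e : 3 * deriv k t + (1 * (deriv k t / 3 - 4 * k t ^ 2)
          + t * (deriv (deriv k) t / 3 - 4 * (((2 : ℕ) : ℝ) * k t ^ (2 - 1) * deriv k t)))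
          + om2 * (((2 : ℕ) : ℝ) * t ^ (2 - 1) * 1) = Wp t := by
      rw [hWp]
      norm_num
      ring
    rw [e] at h
    rw [hW]
    exact h
  -- values at the origin
  have W0 : W 0 = 3 * k 0 := by
    rw [hW]
    simp
  have NN0 : NN 0 = 1 := by
    rw [hNN]
    exact hom2
  have nf0 : nf 0 = -12 * k 0 := by
    rw [hnf]
    simp only [zero_mul, mul_zero, add_zero, sub_zero, one_pow, div_one, mul_one]
    rw [W0]
    ring
  have cnf : ContinuousAt nf 0 := by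
    rw [hnf]
    apply ContinuousAt.div
    · exact Continuous.continuousAt (by fun_prop)
    · exact Continuous.continuousAt (by fun_prop)
    · simp
  -- the six open conditions near the origin
  have e1 : ∀ᶠ t in nhds (0 : ℝ), 0 < 1 + t * k t := by
    have c : ContinuousAt (fun t => 1 + t * k t) 0 := Continuous.continuousAt (by fun_prop)
    exact c.tendsto.eventually (lt_mem_nhds (by simp))
  have e2 : ∀ᶠ t in nhds (0 : ℝ), 1 + t * k t < 2 := by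
    have c : ContinuousAt (fun t => 1 + t * k t) 0 := Continuous.continuousAt (by fun_prop)
    exact c.tendsto.eventually (gt_mem_nhds (by simp))
  have e3 : ∀ᶠ t in nhds (0 : ℝ), 0 < W t :=
    cW.continuousAt.tendsto.eventually (lt_mem_nhds (by rw [W0]; linarith))
  have e4 : ∀ᶠ t in nhds (0 : ℝ), t * W t < 1 := by
    have c : ContinuousAt (fun t => t * W t) 0 := Continuous.continuousAt (by fun_prop)
    exact c.tendsto.eventually (gt_mem_nhds (by simp))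
  have e5 : ∀ᶠ t in nhds (0 : ℝ), 0 < NN t :=
    cNN.continuousAt.tendsto.eventually (lt_mem_nhds (by rw [NN0]; norm_num))
  have e6 : ∀ᶠ t in nhds (0 : ℝ), nf t < -(6 * k 0) :=
    cnf.tendsto.eventually (gt_mem_nhds (by rw [nf0]; linarith))
  obtain ⟨τ, hτ, H⟩ := Metric.eventually_nhds_iff.mp
    (e1.and (e2.and (e3.and (e4.and (e5.and e6)))))
  have mem : ∀ t ∈ Set.Ioo (-τ) τ, dist t 0 < τ := by
    intro t ht
    rw [Real.dist_eq, sub_zero, abs_lt]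
    exact ht
  have memsq : ∀ s : ℝ, s ^ 2 < τ → s ^ 2 ∈ Set.Ioo (-τ) τ := by
    intro s hs
    exact ⟨by nlinarith [sq_nonneg s], hs⟩
  refine ⟨W, fun t => NN t / (4 * W t * (1 - t * W t)), τ, 6 * k 0, ?_⟩
  refine
    { τpos := hτ
      cNpos := by linarith
      sWt := sW
      sQ := ?_
      hpos := fun t ht => (H (mem t ht)).1
      hle := fun t ht => (H (mem t ht)).2.1.le
      Wpos := fun t ht => (H (mem t ht)).2.2.1
      Wlt := fun t ht => (H (mem t ht)).2.2.2.1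
      Qpos := ?_
      hD := ?_
      hN := ?_ }
  · refine ContDiffOn.div sNN.contDiffOn (ContDiff.contDiffOn (by fun_prop)) ?_
    intro t ht
    obtain ⟨-, -, h3, h4, -, -⟩ := H (mem t ht)
    have h4' : 0 < 1 - t * W t := by linarith
    positivity
  · intro t ht
    obtain ⟨-, -, h3, h4, h5, -⟩ := H (mem t ht)
    have h4' : 0 < 1 - t * W t := by linarith
    show 0 < NN t / (4 * W t * (1 - t * W t))
    positivity
  · intro s hs hs2
    obtain ⟨-, -, h3, h4, -, -⟩ := H (mem _ (memsq s hs2))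
    have h4' : 1 - s ^ 2 * W (s ^ 2) ≠ 0 := by
      have : 0 < 1 - s ^ 2 * W (s ^ 2) := by linarith
      exact this.ne'
    have key : 4 * W (s ^ 2) * (1 - s ^ 2 * W (s ^ 2))
          * (1 - ((1 + s ^ 2 * k (s ^ 2)) + 2 * s ^ 2 * (k (s ^ 2) + s ^ 2 * deriv k (s ^ 2))) ^ 2
                * (1 - 3 / 4 * (s ^ 2 * W (s ^ 2)))
              + 3 / 2 * s ^ 2 * (1 + s ^ 2 * k (s ^ 2))
                * ((1 + s ^ 2 * k (s ^ 2)) + 2 * s ^ 2 * (k (s ^ 2) + s ^ 2 * deriv k (s ^ 2)))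
                * (W (s ^ 2) + s ^ 2 * Wp (s ^ 2)))
        - s ^ 2 * (1 + s ^ 2 * k (s ^ 2)) ^ 2 * (W (s ^ 2) + s ^ 2 * Wp (s ^ 2)) ^ 2
            * (1 + 3 * (s ^ 2 * W (s ^ 2)))
        = (s ^ 2) ^ 3 * NN (s ^ 2) := by
      rw [hW, hWp, hNN]
      exact numD_eq (s ^ 2) (k (s ^ 2)) (deriv k (s ^ 2)) (deriv (deriv k) (s ^ 2)) om2
    have hder : deriv W (s ^ 2) = Wp (s ^ 2) := (dW _).deriv
    show Dex (s * (1 + s ^ 2 * k (s ^ 2)))
        ((1 + s ^ 2 * k (s ^ 2)) + 2 * s ^ 2 * (k (s ^ 2) + s ^ 2 * deriv k (s ^ 2)))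
        (s ^ 2 * W (s ^ 2)) (2 * s * W (s ^ 2) + 2 * s ^ 3 * deriv W (s ^ 2))
      = s ^ 6 * (NN (s ^ 2) / (4 * W (s ^ 2) * (1 - s ^ 2 * W (s ^ 2))))
    rw [hder]
    exact germ_D_core s _ _ _ _ _ hs.ne' h3.ne' h4' key
  · intro s hs hs2
    obtain ⟨-, -, h3, h4, -, h6⟩ := H (mem _ (memsq s hs2))
    have h4' : 1 - s ^ 2 * W (s ^ 2) ≠ 0 := by
      have : 0 < 1 - s ^ 2 * W (s ^ 2) := by linarith
      exact this.ne'
    have hder : deriv W (s ^ 2) = Wp (s ^ 2) := (dW _).deriv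
    have enf : nf (s ^ 2) = (2 * (1 + s ^ 2 * k (s ^ 2)) * (1 + 3 * (s ^ 2 * W (s ^ 2)))
          * (W (s ^ 2) + s ^ 2 * Wp (s ^ 2))
          - 6 * ((1 + s ^ 2 * k (s ^ 2)) + 2 * s ^ 2 * (k (s ^ 2) + s ^ 2 * deriv k (s ^ 2)))
            * W (s ^ 2) * (1 - s ^ 2 * W (s ^ 2)))
          / (1 - s ^ 2 * W (s ^ 2)) ^ 5 := by
      rw [hnf]
    show Nex (s * (1 + s ^ 2 * k (s ^ 2)))
        ((1 + s ^ 2 * k (s ^ 2)) + 2 * s ^ 2 * (k (s ^ 2) + s ^ 2 * deriv k (s ^ 2)))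
        (s ^ 2 * W (s ^ 2)) (2 * s * W (s ^ 2) + 2 * s ^ 3 * deriv W (s ^ 2))
      ≤ -(6 * k 0) * s ^ 2
    rw [hder, germ_N_core s _ _ _ _ h4', ← enf]
    calc s ^ 2 * nf (s ^ 2) ≤ s ^ 2 * (-(6 * k 0)) :=
          mul_le_mul_of_nonneg_left h6.le (sq_nonneg s)
      _ = -(6 * k 0) * s ^ 2 := by ring

end Vale.Agent.H19.Sph
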