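import Vale.Agent.H19.Sph.Inv

/-!
Sphere immersions: positivity of `Xi` on a compact middle zone for a large constant `C`.

Sketch. On `[a, M]`: `g ≥ gmin > 0`, `deriv g ^ 2 ≤ η < 4`, `|g p0' - 6 g' p0| ≤ B`
(continuity on a compact set). With `w = Jinv (p0 + C g⁶)` one has `Lam w = p0 + C g⁶ ≥ C gmin⁶`,
so the fourth power of 1 - w equals w / Lam w, at most 1 / (C gmin⁶), hence `e := 1 - w` is as small as we like for `C` large,
and `Xi ≥ 4 - η - 3 e - e⁹ B² / (16 (1 - e))`.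
-/

namespace Vale.Agent.H19.Sph

open scoped ContDiff

theorem mid_xi_pos (gp w N δ B : ℝ) (hw1 : w < 1) (hw2 : 1 / 2 ≤ w)
    (hgp : gp ^ 2 ≤ 4 - δ) (hN : N ^ 2 ≤ B) (he : (1 - w) * (3 + B / 8) ≤ δ / 2) (hδ : 0 < δ) :
    0 < Xi gp w N := by
  unfold Xi
  have hw0 : 0 < w := by linarith
  have he0 : 0 ≤ 1 - w := by linarith
  have he1 : 1 - w ≤ 1 := by linarith
  have hB : 0 ≤ B := le_trans (sq_nonneg N) hN
  have h9 : (1 - w) ^ 9 ≤ 1 - w := by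
    have h8 : (1 - w) ^ 8 ≤ 1 := pow_le_one₀ he0 he1
    calc (1 - w) ^ 9 = (1 - w) * (1 - w) ^ 8 := by ring
      _ ≤ (1 - w) * 1 := mul_le_mul_of_nonneg_left h8 he0
      _ = 1 - w := by ring
  have hterm : (1 - w) ^ 9 * N ^ 2 / (16 * w) ≤ (1 - w) * B / 8 := by
    rw [div_le_iff₀ (by positivity)]
    have h1 : (1 - w) ^ 9 * N ^ 2 ≤ (1 - w) * B :=
      mul_le_mul h9 hN (sq_nonneg N) he0
    have h2 : (1 - w) * B ≤ (1 - w) * B / 8 * (16 * w) := by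
      have h3 : 0 ≤ (1 - w) * B := mul_nonneg he0 hB
      nlinarith
    linarith
  nlinarith

theorem mid_pos (g p0 : ℝ → ℝ) (a M : ℝ) (haM : a ≤ M)
    (cg : ContinuousOn g (Set.Icc a M)) (cg' : ContinuousOn (deriv g) (Set.Icc a M))
    (cp : ContinuousOn p0 (Set.Icc a M)) (cp' : ContinuousOn (deriv p0) (Set.Icc a M))
    (gpos : ∀ s ∈ Set.Icc a M, 0 < g s) (gd : ∀ s ∈ Set.Icc a M, |deriv g s| < 2)
    (p0nn : ∀ s ∈ Set.Icc a M, 0 ≤ p0 s) :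
    ∃ C₀ : ℝ, 1 ≤ C₀ ∧ ∀ C, C₀ ≤ C → ∀ s ∈ Set.Icc a M,
      0 < Xi (deriv g s) (Jinv (p0 s + C * g s ^ 6))
        (g s * deriv p0 s - 6 * deriv g s * p0 s) := by
  have hK : IsCompact (Set.Icc a M) := isCompact_Icc
  have hne : (Set.Icc a M).Nonempty := Set.nonempty_Icc.mpr haM
  -- lower bound for g
  obtain ⟨x0, hx0, hmin⟩ := hK.exists_isMinOn hne cg
  have hgmin : ∀ s ∈ Set.Icc a M, g x0 ≤ g s := fun s hs => hmin hs
  have hg0 : 0 < g x0 := gpos x0 hx0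
  -- upper bound for |g'|
  obtain ⟨x1, hx1, hmax1⟩ := hK.exists_isMaxOn hne cg'.abs
  have hη : ∀ s ∈ Set.Icc a M, |deriv g s| ≤ |deriv g x1| := fun s hs => hmax1 hs
  have hη2 : |deriv g x1| < 2 := gd x1 hx1
  have hη0 : 0 ≤ |deriv g x1| := abs_nonneg _
  -- bound for N ^ 2
  have cN : ContinuousOn (fun s => (g s * deriv p0 s - 6 * deriv g s * p0 s) ^ 2)
      (Set.Icc a M) :=
    ((cg.mul cp').sub ((continuousOn_const.mul cg').mul cp)).pow 2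
  obtain ⟨x2, hx2, hmax2⟩ := hK.exists_isMaxOn hne cN
  obtain ⟨B, hBdef⟩ : ∃ B : ℝ, B = (g x2 * deriv p0 x2 - 6 * deriv g x2 * p0 x2) ^ 2 :=
    ⟨_, rfl⟩
  have hB : ∀ s ∈ Set.Icc a M, (g s * deriv p0 s - 6 * deriv g s * p0 s) ^ 2 ≤ B := by
    intro s hs
    rw [hBdef]
    exact hmax2 hs
  have hB0 : 0 ≤ B := by rw [hBdef]; exact sq_nonneg _
  obtain ⟨δ, hδdef⟩ : ∃ δ : ℝ, δ = 4 - |deriv g x1| ^ 2 := ⟨_, rfl⟩
  have hδ : 0 < δ := by rw [hδdef]; nlinarith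
  obtain ⟨ε, hεdef⟩ : ∃ ε : ℝ, ε = min (1 / 2) (δ / (2 * (3 + B / 8))) := ⟨_, rfl⟩
  have hden : 0 < 2 * (3 + B / 8) := by positivity
  have hε0 : 0 < ε := by
    rw [hεdef]
    exact lt_min (by norm_num) (div_pos hδ hden)
  have hε1 : ε ≤ 1 / 2 := by rw [hεdef]; exact min_le_left _ _
  have hε2 : ε * (3 + B / 8) ≤ δ / 2 := by
    have h1 : ε ≤ δ / (2 * (3 + B / 8)) := by rw [hεdef]; exact min_le_right _ _
    rw [le_div_iff₀ hden] at h1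
    linarith
  have hpos4 : 0 < ε ^ 4 * g x0 ^ 6 := by positivity
  refine ⟨max 1 (1 / (ε ^ 4 * g x0 ^ 6)), le_max_left _ _, ?_⟩
  intro C hC s hs
  have hC1 : 1 ≤ C := le_trans (le_max_left _ _) hC
  have hC2 : 1 / (ε ^ 4 * g x0 ^ 6) ≤ C := le_trans (le_max_right _ _) hC
  have hC3 : 1 ≤ C * (ε ^ 4 * g x0 ^ 6) := by
    rw [div_le_iff₀ hpos4] at hC2
    exact hC2
  have hgs : g x0 ≤ g s := hgmin s hs
  have hg6 : g x0 ^ 6 ≤ g s ^ 6 := pow_le_pow_left₀ hg0.le hgs 6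
  have hg6pos : 0 < g x0 ^ 6 := by positivity
  obtain ⟨p, hpdef⟩ : ∃ p : ℝ, p = p0 s + C * g s ^ 6 := ⟨_, rfl⟩
  have hp1 : C * g x0 ^ 6 ≤ p := by
    rw [hpdef]
    have := p0nn s hs
    have h2 : C * g x0 ^ 6 ≤ C * g s ^ 6 := mul_le_mul_of_nonneg_left hg6 (by linarith)
    linarith
  have hp0 : 0 < p := lt_of_lt_of_le (by positivity) hp1
  rw [← hpdef]
  have hw0 : 0 < Jinv p := Jinv_pos hp0
  have hw1 : Jinv p < 1 := Jinv_lt_one hp0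
  have hL : Lam (Jinv p) = p := Lam_Jinv hp0
  obtain ⟨w, hwdef⟩ : ∃ w : ℝ, w = Jinv p := ⟨_, rfl⟩
  rw [← hwdef] at hw0 hw1 hL ⊢
  have he0 : 0 < 1 - w := by linarith
  have he4 : 0 < (1 - w) ^ 4 := by positivity
  have hLw : w = p * (1 - w) ^ 4 := by
    unfold Lam at hL
    rw [div_eq_iff he4.ne'] at hL
    exact hL
  -- (1 - w)^4 ≤ ε^4
  have hpε : 1 ≤ p * ε ^ 4 := by
    have h1 : C * g x0 ^ 6 * ε ^ 4 ≤ p * ε ^ 4 :=
      mul_le_mul_of_nonneg_right hp1 (by positivity)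
    nlinarith
  have h4 : (1 - w) ^ 4 ≤ ε ^ 4 := by
    have h1 : (1 - w) ^ 4 ≤ (1 - w) ^ 4 * (p * ε ^ 4) := by
      nlinarith
    have h2 : (1 - w) ^ 4 * (p * ε ^ 4) = w * ε ^ 4 := by
      linear_combination (-(ε ^ 4)) * hLw
    have h3 : w * ε ^ 4 ≤ ε ^ 4 := by
      have : 0 ≤ ε ^ 4 := by positivity
      nlinarith
    linarith
  have he : 1 - w ≤ ε := by
    by_contra hcon
    have hlt : ε < 1 - w := not_le.mp hcon
    have := pow_lt_pow_left₀ hlt hε0.le (by norm_num : (4 : ℕ) ≠ 0)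
    linarith
  have hgp : deriv g s ^ 2 ≤ 4 - δ := by
    rw [hδdef]
    have h1 : |deriv g s| ^ 2 ≤ |deriv g x1| ^ 2 :=
      pow_le_pow_left₀ (abs_nonneg _) (hη s hs) 2
    rw [sq_abs] at h1
    linarith
  refine mid_xi_pos _ w _ δ B hw1 (by linarith) hgp (hB s hs) ?_ hδ
  have h5 : (1 - w) * (3 + B / 8) ≤ ε * (3 + B / 8) :=
    mul_le_mul_of_nonneg_right he (by positivity)
  linarith

end Vale.Agent.H19.Sph
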