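import Mathlib

/-!
Sphere immersions: a smooth nondecreasing step `0 → Cs` on `[s1, 2 s1]` whose derivative is
small against `s² / (2 s)⁷`.

Sketch. Take a smooth nondecreasing `σ₀` with `σ₀ = 0` on `(-∞, 0]`, `σ₀ = 1` on `[1, ∞)`
(e.g. a normalised primitive of a nonnegative bump supported in `[0, 1]`), `M₀` a bound of its
derivative, and `Cf s = Cs σ₀((s - s1) / s1)`. Then `0 ≤ Cf' ≤ Cs M₀ / s1`, `Cf' = 0` off
`[s1, 2 s1]`, and `Cf' s (2 s)⁷ ≤ 4096 Cs M₀ s1⁴ s²` there; take `s1` small.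
-/

namespace Vale.Agent.H19.Sph

open scoped ContDiff

lemma stp_sigma : ∃ (P : ℝ → ℝ) (b : ℝ → ℝ) (I : ℝ), 0 < I ∧ ContDiff ℝ ∞ P ∧
    (∀ x, HasDerivAt P (b x) x) ∧ (∀ x, 0 ≤ b x) ∧ (∀ x, b x ≤ 1) ∧
    (∀ x, x ≤ 0 → b x = 0) ∧ (∀ x, 1 ≤ x → b x = 0) ∧
    (∀ x, x ≤ 0 → P x = 0) ∧ (∀ x, 1 ≤ x → P x = I) ∧ (∀ x, 0 ≤ P x) := by
  have hle1 : ∀ x : ℝ, expNegInvGlue x ≤ 1 := by
    intro x
    unfold expNegInvGlue
    split_ifs with h
    · exact zero_le_one
    · rw [Real.exp_le_one_iff]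
      push Not at h
      have := inv_pos.2 h
      linarith
  set b : ℝ → ℝ := fun t => expNegInvGlue t * expNegInvGlue (1 - t) with hb
  have hbsm : ContDiff ℝ ∞ b :=
    expNegInvGlue.contDiff.mul
      (expNegInvGlue.contDiff.comp (contDiff_const.sub contDiff_id))
  have hbc : Continuous b := hbsm.continuous
  have hb0 : ∀ x, 0 ≤ b x := fun x =>
    mul_nonneg (expNegInvGlue.nonneg _) (expNegInvGlue.nonneg _)
  have hb1 : ∀ x, b x ≤ 1 := fun x => by
    have h1 := hle1 x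
    have h2 := hle1 (1 - x)
    have h3 := expNegInvGlue.nonneg x
    have h4 := expNegInvGlue.nonneg (1 - x)
    show expNegInvGlue x * expNegInvGlue (1 - x) ≤ 1
    nlinarith
  have hbL : ∀ x, x ≤ 0 → b x = 0 := fun x hx => by
    show expNegInvGlue x * expNegInvGlue (1 - x) = 0
    rw [expNegInvGlue.zero_of_nonpos hx, zero_mul]
  have hbR : ∀ x, 1 ≤ x → b x = 0 := fun x hx => by
    show expNegInvGlue x * expNegInvGlue (1 - x) = 0
    rw [expNegInvGlue.zero_of_nonpos (by linarith : 1 - x ≤ 0), mul_zero]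
  have hbpos : ∀ x, 0 < x → x < 1 → 0 < b x := fun x h0 h1 =>
    mul_pos (expNegInvGlue.pos_of_pos h0) (expNegInvGlue.pos_of_pos (by linarith))
  have hint : ∀ u v : ℝ, IntervalIntegrable b MeasureTheory.volume u v :=
    fun u v => hbc.intervalIntegrable u v
  set P : ℝ → ℝ := fun x => ∫ t in (0:ℝ)..x, b t with hP
  have hPd : ∀ x, HasDerivAt P (b x) x :=
    fun x => (hbc.integral_hasStrictDerivAt 0 x).hasDerivAt
  have hI : 0 < ∫ t in (0:ℝ)..1, b t := by
    apply intervalIntegral.intervalIntegral_pos_of_pos_on (hint 0 1)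
    · intro x hx
      exact hbpos x hx.1 hx.2
    · exact zero_lt_one
  have hPL : ∀ x, x ≤ 0 → P x = 0 := by
    intro x hx
    show ∫ t in (0:ℝ)..x, b t = 0
    have : ∀ t ∈ Set.uIcc 0 x, b t = (fun _ => (0:ℝ)) t := by
      intro t ht
      rw [Set.uIcc_of_ge hx] at ht
      exact hbL t ht.2
    rw [intervalIntegral.integral_congr this]
    simp
  have hPR : ∀ x, 1 ≤ x → P x = ∫ t in (0:ℝ)..1, b t := by
    intro x hx
    show ∫ t in (0:ℝ)..x, b t = _
    rw [← intervalIntegral.integral_add_adjacent_intervals (hint 0 1) (hint 1 x)]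
    have : ∀ t ∈ Set.uIcc 1 x, b t = (fun _ => (0:ℝ)) t := by
      intro t ht
      rw [Set.uIcc_of_le hx] at ht
      exact hbR t ht.1
    rw [intervalIntegral.integral_congr this]
    simp
  have hP0 : ∀ x, 0 ≤ P x := by
    intro x
    rcases le_total x 0 with hx | hx
    · rw [hPL x hx]
    · exact intervalIntegral.integral_nonneg hx (fun t _ => hb0 t)
  have hPsm : ContDiff ℝ ∞ P := by
    rw [contDiff_infty_iff_deriv]
    refine ⟨fun x => (hPd x).differentiableAt, ?_⟩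
    have : deriv P = b := funext fun x => (hPd x).deriv
    rw [this]
    exact hbsm
  exact ⟨P, b, _, hI, hPsm, hPd, hb0, hb1, hbL, hbR, hPL, hPR, hP0⟩

theorem exists_step (Cs c σ : ℝ) (hC : 0 ≤ Cs) (hc : 0 < c) (hσ : 0 < σ) :
    ∃ (Cf : ℝ → ℝ) (s1 : ℝ), 0 < s1 ∧ 2 * s1 < σ ∧ ContDiff ℝ ∞ Cf ∧
      (∀ s, s ≤ s1 → Cf s = 0) ∧ (∀ s, 2 * s1 ≤ s → Cf s = Cs) ∧
      (∀ s, 0 ≤ Cf s) ∧ (∀ s, 0 ≤ deriv Cf s) ∧
      (∀ s, 0 < s → deriv Cf s * (2 * s) ^ 7 ≤ c * s ^ 2) := by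
  obtain ⟨P, b, I, hI, hPsm, hPd, hb0, hb1, hbL, hbR, hPL, hPR, hP0⟩ := stp_sigma
  set s1 : ℝ := min (σ / 3) (min 1 (c * I / (4096 * Cs + 1))) with hs1
  have hden : 0 < 4096 * Cs + 1 := by linarith
  have hq : 0 < c * I / (4096 * Cs + 1) := div_pos (mul_pos hc hI) hden
  have hs1pos : 0 < s1 := lt_min (by linarith) (lt_min one_pos hq)
  have hs1a : s1 ≤ σ / 3 := min_le_left _ _
  have hs1b : s1 ≤ 1 := (min_le_right _ _).trans (min_le_left _ _)
  have hs1c : s1 ≤ c * I / (4096 * Cs + 1) := (min_le_right _ _).trans (min_le_right _ _)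
  have hs1ne : s1 ≠ 0 := hs1pos.ne'
  set Cf : ℝ → ℝ := fun s => Cs * P ((s - s1) / s1) / I with hCf
  have hCfd : ∀ s, HasDerivAt Cf (Cs * (b ((s - s1) / s1) * (1 / s1)) / I) s := by
    intro s
    have hin : HasDerivAt (fun s : ℝ => (s - s1) / s1) (1 / s1) s :=
      ((hasDerivAt_id s).sub_const s1).div_const s1
    have := ((hPd ((s - s1) / s1)).comp s hin).const_mul Cs
    exact this.div_const I
  have hderiv : ∀ s, deriv Cf s = Cs * (b ((s - s1) / s1) * (1 / s1)) / I :=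
    fun s => (hCfd s).deriv
  refine ⟨Cf, s1, hs1pos, by linarith, ?_, ?_, ?_, ?_, ?_, ?_⟩
  · have h1 : ContDiff ℝ ∞ (fun s : ℝ => (s - s1) / s1) :=
      (contDiff_id.sub contDiff_const).div_const s1
    exact ((contDiff_const.mul (hPsm.comp h1)).div_const I)
  · intro s hs
    have : (s - s1) / s1 ≤ 0 := div_nonpos_of_nonpos_of_nonneg (by linarith) hs1pos.le
    show Cs * P ((s - s1) / s1) / I = 0
    rw [hPL _ this]
    simp
  · intro s hs
    have : 1 ≤ (s - s1) / s1 := by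
      rw [le_div_iff₀ hs1pos]
      linarith
    show Cs * P ((s - s1) / s1) / I = Cs
    rw [hPR _ this]
    field_simp
  · intro s
    exact div_nonneg (mul_nonneg hC (hP0 _)) hI.le
  · intro s
    rw [hderiv]
    exact div_nonneg (mul_nonneg hC (mul_nonneg (hb0 _) (by positivity))) hI.le
  · intro s hs
    rw [hderiv]
    by_cases h1 : s ≤ s1
    · have : (s - s1) / s1 ≤ 0 := div_nonpos_of_nonpos_of_nonneg (by linarith) hs1pos.le
      rw [hbL _ this]
      simp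
      positivity
    by_cases h2 : 2 * s1 ≤ s
    · have : 1 ≤ (s - s1) / s1 := by
        rw [le_div_iff₀ hs1pos]
        linarith
      rw [hbR _ this]
      simp
      positivity
    push Not at h1 h2
    have hbb := hb1 ((s - s1) / s1)
    have hbn := hb0 ((s - s1) / s1)
    have hkey : 4096 * Cs * s1 ^ 4 ≤ c * I := by
      have h4 : s1 ^ 4 ≤ s1 := by
        have : s1 ^ 4 ≤ s1 ^ 1 := pow_le_pow_of_le_one hs1pos.le hs1b (by norm_num)
        simpa using this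
      have h5 : s1 * (4096 * Cs + 1) ≤ c * I := by
        rwa [le_div_iff₀ hden] at hs1c
      nlinarith [mul_nonneg hC hs1pos.le, mul_nonneg hC (pow_nonneg hs1pos.le 4),
        mul_le_mul_of_nonneg_left h4 hC]
    have hs5 : s ^ 5 ≤ (2 * s1) ^ 5 := pow_le_pow_left₀ hs.le h2.le 5
    rw [div_mul_eq_mul_div, div_le_iff₀ hI]
    have e : Cs * (b ((s - s1) / s1) * (1 / s1)) * (2 * s) ^ 7
        = (Cs * b ((s - s1) / s1)) * (128 * s ^ 5 / s1) * s ^ 2 := by
      field_simp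
      ring
    rw [e]
    have h6 : 128 * s ^ 5 / s1 ≤ 4096 * s1 ^ 4 := by
      rw [div_le_iff₀ hs1pos]
      nlinarith [hs5]
    have h7 : Cs * b ((s - s1) / s1) ≤ Cs := by nlinarith
    have h8 : 0 ≤ Cs * b ((s - s1) / s1) := mul_nonneg hC hbn
    have h9 : 0 ≤ 128 * s ^ 5 / s1 := by positivity
    have h10 : (Cs * b ((s - s1) / s1)) * (128 * s ^ 5 / s1) ≤ Cs * (4096 * s1 ^ 4) :=
      mul_le_mul h7 h6 h9 hC
    have h11 : 0 ≤ s ^ 2 := by positivity
    calc (Cs * b ((s - s1) / s1)) * (128 * s ^ 5 / s1) * s ^ 2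
        ≤ Cs * (4096 * s1 ^ 4) * s ^ 2 := mul_le_mul_of_nonneg_right h10 h11
      _ = (4096 * Cs * s1 ^ 4) * s ^ 2 := by ring
      _ ≤ (c * I) * s ^ 2 := mul_le_mul_of_nonneg_right hkey h11
      _ = c * s ^ 2 * I := by ring

end Vale.Agent.H19.Sph
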