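import Vale.Agent.H19.Sph.Inv

/-!
Sphere immersions: positivity of `Xi` in the pole zone, where `P = Λ(w₀) + Cf g⁶` with `w₀` the
pole germ and `Cf ≥ 0` a nondecreasing step with small derivative.

Sketch. `g s = gvG k s ∈ (0, 2 s]` and `deriv g s = gpG k s` (`hasDerivAt_gvG`); `w₀ := wG Wt s`
lies in `(0, 1)` (`hG.Wpos`, `hG.Wlt` at `t = s²`). `deriv P s = Λ'(w₀) wpG Wt s + Cf' g⁶
+ 6 Cf g⁵ g'` (`hasDerivAt_Lam`, `hasDerivAt_wG`), so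
`N := g P' - 6 g' P = N₀ + Cf' g⁷` with `N₀ = Nex (gvG k s) (gpG k s) (wG Wt s) (wpG Wt s)
≤ -cN s²` (`hG.hN`). As `0 ≤ Cf' g⁷ ≤ Cf' (2 s)⁷ ≤ 2 cN s² ≤ -2 N₀`, `N² ≤ N₀²`. Also
`Jinv (P s) ≥ Jinv (Lam w₀) = w₀` (`Jinv_le_Jinv`, `Jinv_Lam`). By `Xi_mono` and
`Dex_mul_eq_Xi`, `Xi ≥ Xi (g') w₀ N₀ = s⁶ Q(s²) (1 + 3 w₀) > 0` (`hG.hD`, `hG.Qpos`).
-/

namespace Vale.Agent.H19.Sph

open scoped ContDiff

theorem zone_Xi_pos (k Wt Q : ℝ → ℝ) (τ cN : ℝ) (sk : ContDiff ℝ ∞ k)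
    (hG : PoleGerm k Wt Q τ cN) (g Cf P : ℝ → ℝ) (sg : ContDiff ℝ ∞ g)
    (sCf : ContDiff ℝ ∞ Cf) (s : ℝ) (hs : 0 < s) (hsτ : s ^ 2 < τ)
    (hg : ∀ᶠ x in nhds s, g x = gvG k x)
    (hP : ∀ᶠ x in nhds s, P x = Lam (wG Wt x) + Cf x * g x ^ 6)
    (hCf0 : 0 ≤ Cf s) (hCf1 : 0 ≤ deriv Cf s)
    (hCf2 : deriv Cf s * (2 * s) ^ 7 ≤ 2 * cN * s ^ 2) :
    0 < Xi (deriv g s) (Jinv (P s)) (g s * deriv P s - 6 * deriv g s * P s) := by
  have hs2 : 0 < s ^ 2 := pow_pos hs 2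
  have ht : s ^ 2 ∈ Set.Ioo (-τ) τ := ⟨by have := hG.τpos; linarith, hsτ⟩
  have hD := hG.hD s hs hsτ
  have hN0 := hG.hN s hs hsτ
  -- the germ of `g`
  have hgs : g s = gvG k s := hg.self_of_nhds
  have hgd : deriv g s = gpG k s := by
    rw [Filter.EventuallyEq.deriv_eq hg]
    exact (hasDerivAt_gvG k sk s).deriv
  have hgD : HasDerivAt g (gpG k s) s := by
    have h := (sg.differentiable (by simp) s).hasDerivAt
    rwa [hgd] at h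
  have hgv0 : 0 < gvG k s := by
    unfold gvG
    exact mul_pos hs (hG.hpos _ ht)
  have hgv2 : gvG k s ≤ 2 * s := by
    unfold gvG
    have h := hG.hle _ ht
    nlinarith
  -- the germ of `w`
  have hw0pos : 0 < wG Wt s := by
    unfold wG
    exact mul_pos hs2 (hG.Wpos _ ht)
  have hw0lt : wG Wt s < 1 := by
    unfold wG
    exact hG.Wlt _ ht
  have hwD : HasDerivAt (wG Wt) (wpG Wt s) s := hasDerivAt_wG Wt hG.sWt s
  have hLD : HasDerivAt (fun x => Lam (wG Wt x))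
      ((1 + 3 * wG Wt s) / (1 - wG Wt s) ^ 5 * wpG Wt s) s :=
    (hasDerivAt_Lam (wG Wt s) hw0lt.ne).comp s hwD
  have hCD : HasDerivAt Cf (deriv Cf s) s := (sCf.differentiable (by simp) s).hasDerivAt
  have hg6 : HasDerivAt (fun x => g x ^ 6) (6 * gvG k s ^ 5 * gpG k s) s := by
    have h := hgD.fun_pow 6
    rw [hgs] at h
    refine h.congr_deriv ?_
    norm_num
  have hPD : HasDerivAt P ((1 + 3 * wG Wt s) / (1 - wG Wt s) ^ 5 * wpG Wt s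
      + (deriv Cf s * gvG k s ^ 6 + Cf s * (6 * gvG k s ^ 5 * gpG k s))) s := by
    have h1 : HasDerivAt (fun x => Lam (wG Wt x) + Cf x * g x ^ 6)
        ((1 + 3 * wG Wt s) / (1 - wG Wt s) ^ 5 * wpG Wt s
          + (deriv Cf s * gvG k s ^ 6 + Cf s * (6 * gvG k s ^ 5 * gpG k s))) s := by
      have h := hLD.add (hCD.mul hg6)
      rw [hgs] at h
      exact h
    exact h1.congr_of_eventuallyEq hP
  have hPs : P s = Lam (wG Wt s) + Cf s * gvG k s ^ 6 := by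
    have h := hP.self_of_nhds
    rw [hgs] at h
    exact h
  rw [hgd, hgs, hPD.deriv, hPs]
  -- the quantity `N`
  have hNeq : gvG k s * ((1 + 3 * wG Wt s) / (1 - wG Wt s) ^ 5 * wpG Wt s
        + (deriv Cf s * gvG k s ^ 6 + Cf s * (6 * gvG k s ^ 5 * gpG k s)))
      - 6 * gpG k s * (Lam (wG Wt s) + Cf s * gvG k s ^ 6)
      = Nex (gvG k s) (gpG k s) (wG Wt s) (wpG Wt s) + deriv Cf s * gvG k s ^ 7 := by
    unfold Nex Lam
    ring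
  rw [hNeq]
  have hδ0 : 0 ≤ deriv Cf s * gvG k s ^ 7 := mul_nonneg hCf1 (pow_nonneg hgv0.le 7)
  have hδ1 : deriv Cf s * gvG k s ^ 7 ≤ 2 * cN * s ^ 2 :=
    (mul_le_mul_of_nonneg_left (pow_le_pow_left₀ hgv0.le hgv2 7) hCf1).trans hCf2
  have hNsq : (Nex (gvG k s) (gpG k s) (wG Wt s) (wpG Wt s) + deriv Cf s * gvG k s ^ 7) ^ 2
      ≤ Nex (gvG k s) (gpG k s) (wG Wt s) (wpG Wt s) ^ 2 := by
    have h2 : 0 ≤ -(2 * Nex (gvG k s) (gpG k s) (wG Wt s) (wpG Wt s)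
        + deriv Cf s * gvG k s ^ 7) := by linarith
    nlinarith [mul_nonneg hδ0 h2]
  -- the value of `P`
  have hLpos : 0 < Lam (wG Wt s) := Lam_pos hw0pos hw0lt
  have hle : Lam (wG Wt s) ≤ Lam (wG Wt s) + Cf s * gvG k s ^ 6 :=
    le_add_of_nonneg_right (mul_nonneg hCf0 (pow_nonneg hgv0.le 6))
  have hJ : wG Wt s ≤ Jinv (Lam (wG Wt s) + Cf s * gvG k s ^ 6) := by
    have h := Jinv_le_Jinv hLpos hle
    rwa [Jinv_Lam hw0pos hw0lt] at h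
  have hJ1 : Jinv (Lam (wG Wt s) + Cf s * gvG k s ^ 6) < 1 :=
    Jinv_lt_one (lt_of_lt_of_le hLpos hle)
  have hmono := Xi_mono (gpG k s) (wG Wt s) (Jinv (Lam (wG Wt s) + Cf s * gvG k s ^ 6))
    (Nex (gvG k s) (gpG k s) (wG Wt s) (wpG Wt s))
    (Nex (gvG k s) (gpG k s) (wG Wt s) (wpG Wt s) + deriv Cf s * gvG k s ^ 7)
    hw0pos hJ hJ1 hNsq
  have hXi0 : 0 < Xi (gpG k s) (wG Wt s) (Nex (gvG k s) (gpG k s) (wG Wt s) (wpG Wt s)) := by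
    rw [← Dex_mul_eq_Xi (gvG k s) (gpG k s) (wG Wt s) (wpG Wt s) hw0pos hw0lt, hD]
    exact mul_pos (mul_pos (pow_pos hs 6) (hG.Qpos _ ht)) (by linarith)
  exact lt_of_lt_of_le hXi0 hmono

end Vale.Agent.H19.Sph
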