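import Vale.Agent.H19.Sph.Germ
import Vale.Agent.H19.Sph.Step
import Vale.Agent.H19.Sph.Cutoff
import Vale.Agent.H19.Sph.Mid
import Vale.Agent.H19.Sph.Zone

/-!
Sphere immersions: the `Λ`-transform `P` of the profile on a half `(0, M)` of the sphere.

Sketch.
1. `(Wt, Q, τ, cN)` from `exists_poleGerm k sk k0`.
2. `δ > 0` with `2 δ < m`, `2 δ < ε`, `(2 δ)² < τ`; `χ` from `exists_cutoff δ`.
3. `p0 s := χ s * Lam (wG Wt s)`. For `0 < s ≤ 2 δ`, `wG Wt s ∈ (0, 1)`, so `p0 ≥ 0` on `(0, ∞)`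
   and `p0` is smooth on `(0, ∞)` (a product of smooth functions on `(0, √τ)`, zero on
   `(2 δ, ∞)`).
4. `C₀` from `mid_pos g p0 (δ / 2) M`.
5. For `C ≥ C₀` (so `C ≥ 1`): `(Cf, s1)` from `exists_step C (2 cN) (δ / 2)`;
   `P := p0 + Cf g⁶`, `s0 := s1`.
6. `P > 0` on `(0, M)`: for `s ≤ δ`, `p0 s = Lam (wG Wt s) > 0`; for `s > δ`, `Cf s = C > 0`.
   `Xi > 0` on `(0, δ)` by `zone_Xi_pos` (there `χ = 1` near `s`, `g = gvG k` near `s`,
   `g s ≤ 2 s`); `Xi > 0` on `[δ / 2, M)` by step 4 (there `Cf = C` near `s`, so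
   `g P' - 6 g' P = g p0' - 6 g' p0`).
   For `s < s1`: `χ = 1`, `Cf = 0`. For `s ≥ m > 2 δ`: `χ = 0`, `Cf = C`.
-/

namespace Vale.Agent.H19.Sph

open scoped ContDiff

/-- The germ `wG Wt s` lies in `(0, 1)` for `0 < s`, `s² < τ`. -/
theorem hb_wG_mem (k Wt Q : ℝ → ℝ) (τ cN : ℝ) (hG : PoleGerm k Wt Q τ cN) (s : ℝ) (hs : 0 < s)
    (hsτ : s ^ 2 < τ) : 0 < wG Wt s ∧ wG Wt s < 1 := by
  have hs2 : 0 < s ^ 2 := by positivity
  have hmem : s ^ 2 ∈ Set.Ioo (-τ) τ := ⟨by linarith [hG.τpos], hsτ⟩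
  have h1 := hG.Wpos (s ^ 2) hmem
  have h2 := hG.Wlt (s ^ 2) hmem
  unfold wG
  exact ⟨by positivity, h2⟩

/-- `wG Wt` is smooth. -/
theorem hb_contDiff_wG (Wt : ℝ → ℝ) (sWt : ContDiff ℝ ∞ Wt) : ContDiff ℝ ∞ (wG Wt) := by
  unfold wG
  exact (contDiff_id.pow 2).mul (sWt.comp (contDiff_id.pow 2))

/-- `Lam ∘ wG Wt` is smooth at `s` when `wG Wt s ≠ 1`. -/
theorem hb_contDiffAt_LamwG (Wt : ℝ → ℝ) (sWt : ContDiff ℝ ∞ Wt) (s : ℝ) (h1 : wG Wt s ≠ 1) :
    ContDiffAt ℝ ∞ (fun x => Lam (wG Wt x)) s := by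
  have hw : ContDiffAt ℝ ∞ (wG Wt) s := (hb_contDiff_wG Wt sWt).contDiffAt
  have hden : ContDiffAt ℝ ∞ (fun x => (1 - wG Wt x) ^ 4) s :=
    (contDiffAt_const.sub hw).pow 4
  have hne : (1 - wG Wt s) ^ 4 ≠ 0 := pow_ne_zero 4 (sub_ne_zero.mpr (Ne.symm h1))
  have := hw.div hden hne
  unfold Lam
  exact this

/-- The cut-off profile `p0 = χ · Λ(wG Wt)` is smooth at every `s > 0`. -/
theorem hb_contDiffAt_p0 (k Wt Q : ℝ → ℝ) (τ cN : ℝ) (hG : PoleGerm k Wt Q τ cN) (χ : ℝ → ℝ)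
    (δ : ℝ) (hδτ : (2 * δ) ^ 2 < τ) (sχ : ContDiff ℝ ∞ χ)
    (χ0 : ∀ s, 2 * δ ≤ s → χ s = 0) (s : ℝ) (hs : 0 < s) :
    ContDiffAt ℝ ∞ (fun x => χ x * Lam (wG Wt x)) s := by
  by_cases hsτ : s ^ 2 < τ
  · have hw := hb_wG_mem k Wt Q τ cN hG s hs hsτ
    exact sχ.contDiffAt.mul (hb_contDiffAt_LamwG Wt hG.sWt s hw.2.ne)
  · have h2 : 2 * δ < s := by
      by_contra hcon
      push Not at hcon
      have : s ^ 2 ≤ (2 * δ) ^ 2 := pow_le_pow_left₀ hs.le hcon 2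
      linarith
    have hev : (fun x => χ x * Lam (wG Wt x)) =ᶠ[nhds s] fun _ => (0 : ℝ) := by
      filter_upwards [lt_mem_nhds h2] with x hx
      rw [χ0 x hx.le, zero_mul]
    exact contDiffAt_const.congr_of_eventuallyEq hev

/-- `p0 ≥ 0` on `(0, ∞)`. -/
theorem hb_p0_nonneg (k Wt Q : ℝ → ℝ) (τ cN : ℝ) (hG : PoleGerm k Wt Q τ cN) (χ : ℝ → ℝ)
    (δ : ℝ) (hδτ : (2 * δ) ^ 2 < τ) (χnn : ∀ s, 0 ≤ χ s)
    (χ0 : ∀ s, 2 * δ ≤ s → χ s = 0) (s : ℝ) (hs : 0 < s) :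
    0 ≤ χ s * Lam (wG Wt s) := by
  by_cases hsτ : s ^ 2 < τ
  · have hw := hb_wG_mem k Wt Q τ cN hG s hs hsτ
    exact mul_nonneg (χnn s) (Lam_pos hw.1 hw.2).le
  · have h2 : 2 * δ < s := by
      by_contra hcon
      push Not at hcon
      have : s ^ 2 ≤ (2 * δ) ^ 2 := pow_le_pow_left₀ hs.le hcon 2
      linarith
    rw [χ0 s h2.le, zero_mul]

theorem exists_P (g k : ℝ → ℝ) (ε m M : ℝ) (hε : 0 < ε) (hm : 0 < m) (hmM : m < M)
    (sg : ContDiff ℝ ∞ g) (sk : ContDiff ℝ ∞ k)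
    (gN : ∀ s, |s| < ε → g s = gvG k s) (k0 : 0 < k 0)
    (gpos : ∀ s, 0 < s → s ≤ M → 0 < g s)
    (gd : ∀ s, 0 ≤ s → s ≤ M → |deriv g s| < 2) :
    ∃ (Wt Q : ℝ → ℝ) (τ cN C₀ : ℝ), PoleGerm k Wt Q τ cN ∧
      ∀ C, C₀ ≤ C → ∃ (P : ℝ → ℝ) (s0 : ℝ), 0 < s0 ∧ s0 < m ∧ s0 < ε ∧ s0 ^ 2 < τ ∧
        ContDiffOn ℝ ∞ P (Set.Ioo 0 M) ∧
        (∀ s ∈ Set.Ioo 0 M, 0 < P s ∧
          0 < Xi (deriv g s) (Jinv (P s)) (g s * deriv P s - 6 * deriv g s * P s)) ∧
        (∀ s, 0 < s → s < s0 → P s = Lam (wG Wt s)) ∧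
        (∀ s, m ≤ s → s < M → P s = C * g s ^ 6) := by
  obtain ⟨Wt, Q, τ, cN, hG⟩ := exists_poleGerm k sk k0
  have hτ := hG.τpos
  have hcN := hG.cNpos
  -- step 2: the scale δ
  obtain ⟨δ, hδ, hδm, hδε, hδτ⟩ : ∃ δ : ℝ, 0 < δ ∧ 2 * δ < m ∧ 2 * δ < ε ∧ (2 * δ) ^ 2 < τ := by
    refine ⟨min (min (m / 4) (ε / 4)) (min (τ / 8) (1 / 4)), ?_, ?_, ?_, ?_⟩
    · positivity
    · have : min (min (m / 4) (ε / 4)) (min (τ / 8) (1 / 4)) ≤ m / 4 :=
        (min_le_left _ _).trans (min_le_left _ _)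
      linarith
    · have : min (min (m / 4) (ε / 4)) (min (τ / 8) (1 / 4)) ≤ ε / 4 :=
        (min_le_left _ _).trans (min_le_right _ _)
      linarith
    · have h1 : min (min (m / 4) (ε / 4)) (min (τ / 8) (1 / 4)) ≤ τ / 8 :=
        (min_le_right _ _).trans (min_le_left _ _)
      have h2 : min (min (m / 4) (ε / 4)) (min (τ / 8) (1 / 4)) ≤ 1 / 4 :=
        (min_le_right _ _).trans (min_le_right _ _)
      have h3 : 0 < min (min (m / 4) (ε / 4)) (min (τ / 8) (1 / 4)) := by positivity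
      nlinarith
  obtain ⟨χ, sχ, χ1, χ0, χnn, χle⟩ := exists_cutoff δ hδ
  -- step 3: the cut-off germ
  set p0 : ℝ → ℝ := fun x => χ x * Lam (wG Wt x) with hp0
  have cdp0 : ∀ s, 0 < s → ContDiffAt ℝ ∞ p0 s := fun s hs =>
    hb_contDiffAt_p0 k Wt Q τ cN hG χ δ hδτ sχ χ0 s hs
  have p0nn : ∀ s, 0 < s → 0 ≤ p0 s := fun s hs =>
    hb_p0_nonneg k Wt Q τ cN hG χ δ hδτ χnn χ0 s hs
  have cdOn : ContDiffOn ℝ ∞ p0 (Set.Ioi 0) := fun s hs => (cdp0 s hs).contDiffWithinAt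
  have hsub : Set.Icc (δ / 2) M ⊆ Set.Ioi (0 : ℝ) := fun s hs => by
    have := hs.1
    simp only [Set.mem_Ioi]
    linarith
  have cp : ContinuousOn p0 (Set.Icc (δ / 2) M) := cdOn.continuousOn.mono hsub
  have cp' : ContinuousOn (deriv p0) (Set.Icc (δ / 2) M) :=
    (cdOn.continuousOn_deriv_of_isOpen isOpen_Ioi (by simp)).mono hsub
  have cg : ContinuousOn g (Set.Icc (δ / 2) M) := sg.continuous.continuousOn
  have cg' : ContinuousOn (deriv g) (Set.Icc (δ / 2) M) :=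
    (sg.continuous_deriv (by simp)).continuousOn
  -- step 4: the threshold
  obtain ⟨C₀, hC₀, hmid⟩ := mid_pos g p0 (δ / 2) M (by linarith) cg cg' cp cp'
    (fun s hs => gpos s (by linarith [hs.1]) hs.2)
    (fun s hs => gd s (by linarith [hs.1]) hs.2)
    (fun s hs => p0nn s (by linarith [hs.1]))
  refine ⟨Wt, Q, τ, cN, C₀, hG, ?_⟩
  intro C hC
  have hCpos : 0 < C := by linarith
  -- step 5: the step
  obtain ⟨Cf, s1, hs1, hs1σ, sCf, Cf0, CfC, Cfnn, Cf'nn, Cf'small⟩ :=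
    exists_step C (2 * cN) (δ / 2) hCpos.le (by linarith) (by linarith)
  have hs1δ : s1 < δ := by linarith
  have hs1sq : s1 ^ 2 < τ := by
    have : s1 ^ 2 ≤ (2 * δ) ^ 2 := pow_le_pow_left₀ hs1.le (by linarith) 2
    linarith
  refine ⟨fun x => p0 x + Cf x * g x ^ 6, s1, hs1, by linarith, by linarith, hs1sq, ?_, ?_, ?_, ?_⟩
  · -- smoothness
    intro s hs
    have h1 : ContDiffAt ℝ ∞ p0 s := cdp0 s hs.1
    have h2 : ContDiffAt ℝ ∞ (fun x => Cf x * g x ^ 6) s :=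
      (sCf.mul (sg.pow 6)).contDiffAt
    exact (h1.add h2).contDiffWithinAt
  · -- positivity of P and of Xi
    intro s hs
    obtain ⟨hs0, hsM⟩ := hs
    have hgs : 0 < g s := gpos s hs0 hsM.le
    have hPpos : 0 < p0 s + Cf s * g s ^ 6 := by
      by_cases hsδ : s ≤ δ
      · have hsτ : s ^ 2 < τ := by
          have : s ^ 2 ≤ (2 * δ) ^ 2 := pow_le_pow_left₀ hs0.le (by linarith) 2
          linarith
        have hw := hb_wG_mem k Wt Q τ cN hG s hs0 hsτ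
        have e : p0 s = Lam (wG Wt s) := by
          simp only [hp0]
          rw [χ1 s hsδ, one_mul]
        have h1 : 0 < Lam (wG Wt s) := Lam_pos hw.1 hw.2
        have h2 : 0 ≤ Cf s * g s ^ 6 := mul_nonneg (Cfnn s) (by positivity)
        linarith
      · push Not at hsδ
        have e : Cf s = C := CfC s (by linarith)
        have h1 : 0 ≤ p0 s := p0nn s hs0
        have h2 : 0 < C * g s ^ 6 := by positivity
        rw [e]
        linarith
    refine ⟨hPpos, ?_⟩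
    by_cases hsδ : s < δ
    · -- pole zone
      have hsτ : s ^ 2 < τ := by
        have : s ^ 2 ≤ (2 * δ) ^ 2 := pow_le_pow_left₀ hs0.le (by linarith) 2
        linarith
      have hg : ∀ᶠ x in nhds s, g x = gvG k x := by
        have hopen : ∀ᶠ x in nhds s, |x| < ε := by
          have hsε : s < ε := by linarith
          have h1 : ∀ᶠ x in nhds s, x < ε := gt_mem_nhds hsε
          have h2 : ∀ᶠ x in nhds s, 0 < x := lt_mem_nhds hs0
          filter_upwards [h1, h2] with x hx1 hx2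
          rw [abs_of_pos hx2]
          exact hx1
        filter_upwards [hopen] with x hx
        exact gN x hx
      have hP : ∀ᶠ x in nhds s,
          (fun x => p0 x + Cf x * g x ^ 6) x = Lam (wG Wt x) + Cf x * g x ^ 6 := by
        filter_upwards [gt_mem_nhds hsδ] with x hx
        simp only [hp0]
        rw [χ1 x hx.le, one_mul]
      exact zone_Xi_pos k Wt Q τ cN sk hG g Cf (fun x => p0 x + Cf x * g x ^ 6) sg sCf s hs0 hsτ
        hg hP (Cfnn s) (Cf'nn s) (Cf'small s hs0)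
    · -- middle zone
      push Not at hsδ
      have hmem : s ∈ Set.Icc (δ / 2) M := ⟨by linarith, hsM.le⟩
      have hX := hmid C hC s hmem
      have e : Cf s = C := CfC s (by linarith)
      have hdp0 : HasDerivAt p0 (deriv p0 s) s :=
        ((cdp0 s hs0).differentiableAt (by simp)).hasDerivAt
      have hdg : HasDerivAt g (deriv g s) s :=
        ((sg.differentiable (by simp)) s).hasDerivAt
      have hdg6 : HasDerivAt (fun x => C * g x ^ 6) (C * (6 * g s ^ 5 * deriv g s)) s := by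
        exact ((hdg.fun_pow 6).const_mul C).congr_deriv (by norm_num)
      have hev : (fun x => p0 x + Cf x * g x ^ 6) =ᶠ[nhds s] fun x => p0 x + C * g x ^ 6 := by
        have h2 : 2 * s1 < s := by linarith
        filter_upwards [lt_mem_nhds h2] with x hx
        rw [CfC x hx.le]
      have hdP : deriv (fun x => p0 x + Cf x * g x ^ 6) s
          = deriv p0 s + C * (6 * g s ^ 5 * deriv g s) := by
        rw [hev.deriv_eq]
        exact (hdp0.add hdg6).deriv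
      have eN : g s * deriv (fun x => p0 x + Cf x * g x ^ 6) s
          - 6 * deriv g s * (p0 s + Cf s * g s ^ 6)
          = g s * deriv p0 s - 6 * deriv g s * p0 s := by
        rw [hdP, e]
        ring
      show 0 < Xi (deriv g s) (Jinv (p0 s + Cf s * g s ^ 6))
        (g s * deriv (fun x => p0 x + Cf x * g x ^ 6) s
          - 6 * deriv g s * (p0 s + Cf s * g s ^ 6))
      rw [eN, e]
      exact hX
  · -- near the pole
    intro s hs0 hs
    show p0 s + Cf s * g s ^ 6 = Lam (wG Wt s)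
    have e1 : p0 s = Lam (wG Wt s) := by
      simp only [hp0]
      rw [χ1 s (by linarith), one_mul]
    rw [e1, Cf0 s hs.le]
    ring
  · -- beyond m
    intro s hs hsM
    show p0 s + Cf s * g s ^ 6 = C * g s ^ 6
    have e1 : p0 s = 0 := by
      simp only [hp0]
      rw [χ0 s (by linarith), zero_mul]
    rw [e1, CfC s (by linarith)]
    ring

end Vale.Agent.H19.Sph
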