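import Vale.Agent.H19.Sph.HalfA
import Vale.Agent.H19.Sph.HalfB

/-!
Sphere immersions: the profile `w` on a half `(0, M)` of the sphere.
-/

namespace Vale.Agent.H19.Sph

open scoped ContDiff

theorem exists_half (g k : ℝ → ℝ) (ε m M : ℝ) (hε : 0 < ε) (hm : 0 < m) (hmM : m < M)
    (sg : ContDiff ℝ ∞ g) (sk : ContDiff ℝ ∞ k)
    (gN : ∀ s, |s| < ε → g s = gvG k s) (k0 : 0 < k 0)
    (gpos : ∀ s, 0 < s → s ≤ M → 0 < g s)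
    (gd : ∀ s, 0 ≤ s → s ≤ M → |deriv g s| < 2) :
    ∃ (Wt Q : ℝ → ℝ) (τ cN C₀ : ℝ), PoleGerm k Wt Q τ cN ∧
      ∀ C, C₀ ≤ C → ∃ (w : ℝ → ℝ) (s0 : ℝ), 0 < s0 ∧ s0 < m ∧ s0 < ε ∧ s0 ^ 2 < τ ∧
        ContDiffOn ℝ ∞ w (Set.Ioo 0 M) ∧
        (∀ s ∈ Set.Ioo 0 M, 0 < w s ∧ w s < 1 ∧
          0 < Dex (g s) (deriv g s) (w s) (deriv w s)) ∧
        (∀ s, 0 < s → s < s0 → w s = wG Wt s) ∧
        (∀ s, m ≤ s → s < M → w s = Jinv (C * g s ^ 6)) := by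
  obtain ⟨Wt, Q, τ, cN, C₀, hG, hC⟩ := exists_P g k ε m M hε hm hmM sg sk gN k0 gpos gd
  refine ⟨Wt, Q, τ, cN, C₀, hG, fun C hCC => ?_⟩
  obtain ⟨P, s0, h1, h2, h3, h4, sP, hP, hPN, hPM⟩ := hC C hCC
  obtain ⟨hw, hw2⟩ := profile_of_P g P M sg sP hP
  refine ⟨fun s => Jinv (P s), s0, h1, h2, h3, h4, hw, hw2, ?_, ?_⟩
  · intro s hs hs0
    have ht : s ^ 2 ∈ Set.Ioo (-τ) τ := by
      constructor
      · have := hG.τpos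
        nlinarith [sq_nonneg s]
      · nlinarith
    have w0 : 0 < wG Wt s := by
      unfold wG
      have := hG.Wpos _ ht
      positivity
    have w1 : wG Wt s < 1 := hG.Wlt _ ht
    show Jinv (P s) = wG Wt s
    rw [hPN s hs hs0, Jinv_Lam w0 w1]
  · intro s hs hsM
    show Jinv (P s) = Jinv (C * g s ^ 6)
    rw [hPM s hs hsM]

end Vale.Agent.H19.Sph
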