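import Vale.Agent.H19.Sph.Inv

/-!
Sphere immersions: from a positive function `P` (the `Λ`-transform of the profile) with positive
`Xi` to the profile `w = Jinv ∘ P` with positive defect.

Sketch. `w = Jinv ∘ P` is smooth on `(0, M)` (`contDiffOn_Jinv`, `P > 0`), with values in
`(0, 1)`. Near `s`, `Lam (w x) = P x` (`Lam_Jinv`), so `x ↦ Lam (w x)` has derivative `deriv P s`
at `s`; by `Nex_eq_of_hasDerivAt`, `Nex (g s) (g' s) (w s) (w' s) = g s P' s - 6 g' s P s`, and by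
`Dex_mul_eq_Xi`, `Dex * (1 + 3 w) = Xi > 0`.
-/

namespace Vale.Agent.H19.Sph

open scoped ContDiff

theorem profile_of_P (g P : ℝ → ℝ) (M : ℝ) (sg : ContDiff ℝ ∞ g)
    (sP : ContDiffOn ℝ ∞ P (Set.Ioo 0 M))
    (hP : ∀ s ∈ Set.Ioo 0 M, 0 < P s ∧
      0 < Xi (deriv g s) (Jinv (P s)) (g s * deriv P s - 6 * deriv g s * P s)) :
    ContDiffOn ℝ ∞ (fun s => Jinv (P s)) (Set.Ioo 0 M) ∧
      ∀ s ∈ Set.Ioo 0 M, 0 < Jinv (P s) ∧ Jinv (P s) < 1 ∧
        0 < Dex (g s) (deriv g s) (Jinv (P s)) (deriv (fun x => Jinv (P x)) s) := by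
  have hcd : ContDiffOn ℝ ∞ (fun s => Jinv (P s)) (Set.Ioo 0 M) :=
    contDiffOn_Jinv.comp sP (fun s hs => (hP s hs).1)
  refine ⟨hcd, fun s hs => ?_⟩
  have hPs : 0 < P s := (hP s hs).1
  have h0 : 0 < Jinv (P s) := Jinv_pos hPs
  have h1 : Jinv (P s) < 1 := Jinv_lt_one hPs
  refine ⟨h0, h1, ?_⟩
  have hnhds : Set.Ioo 0 M ∈ nhds s := Ioo_mem_nhds hs.1 hs.2
  have hw : HasDerivAt (fun x => Jinv (P x)) (deriv (fun x => Jinv (P x)) s) s :=
    ((hcd.differentiableOn (by simp)).differentiableAt hnhds).hasDerivAt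
  have hPd : HasDerivAt P (deriv P s) s :=
    ((sP.differentiableOn (by simp)).differentiableAt hnhds).hasDerivAt
  have hev : (fun x => Lam (Jinv (P x))) =ᶠ[nhds s] P := by
    filter_upwards [hnhds] with x hx
    exact Lam_Jinv (hP x hx).1
  have hp : HasDerivAt (fun x => Lam (Jinv (P x))) (deriv P s) s :=
    hPd.congr_of_eventuallyEq hev
  have hN := Nex_eq_of_hasDerivAt (g s) (deriv g s) (fun x => Jinv (P x)) s
    (deriv (fun x => Jinv (P x)) s) (deriv P s) hw (ne_of_lt h1) hp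
  have hN' : Nex (g s) (deriv g s) (Jinv (P s)) (deriv (fun x => Jinv (P x)) s) =
      g s * deriv P s - 6 * deriv g s * P s := by
    rw [hN, Lam_Jinv hPs]
  have hD := Dex_mul_eq_Xi (g s) (deriv g s) (Jinv (P s))
    (deriv (fun x => Jinv (P x)) s) h0 h1
  rw [hN'] at hD
  have hpos : 0 < Dex (g s) (deriv g s) (Jinv (P s)) (deriv (fun x => Jinv (P x)) s) *
      (1 + 3 * Jinv (P s)) := by
    rw [hD]
    exact (hP s hs).2
  have h13 : 0 < 1 + 3 * Jinv (P s) := by linarith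
  exact (mul_pos_iff_of_pos_right h13).mp hpos

end Vale.Agent.H19.Sph
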