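import Vale.Agent.H19.Sph.Alg

/-!
Sphere immersions: the smooth inverse `Jinv : (0, ∞) → (0, 1)` of `Λ(w) = w / (1 - w)⁴`.
-/

namespace Vale.Agent.H19.Sph

open scoped ContDiff

/-- Every `p > 0` is a value of `Λ` on `(0, 1)` (intermediate value theorem). -/
private theorem Lam_surj {p : ℝ} (hp : 0 < p) : ∃ w, 0 < w ∧ w < 1 ∧ Lam w = p := by
  have h1p : 0 < 1 + p := by linarith
  have hw1pos : 0 < p / (1 + p) := div_pos hp h1p
  have hw1lt : p / (1 + p) < 1 := by
    rw [div_lt_one h1p]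
    linarith
  have hcont : ContinuousOn Lam (Set.Icc 0 (p / (1 + p))) := by
    intro x hx
    have hx1 : x ≠ 1 := by
      have := hx.2
      intro h
      linarith
    exact (hasDerivAt_Lam x hx1).continuousAt.continuousWithinAt
  have hL0 : Lam 0 = 0 := by simp [Lam]
  have hL1 : p ≤ Lam (p / (1 + p)) := by
    have e : Lam (p / (1 + p)) = p * (1 + p) ^ 3 := by
      unfold Lam
      have h2 : (1 + p) ≠ 0 := h1p.ne'
      have e1 : 1 - p / (1 + p) = 1 / (1 + p) := by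
        field_simp
        ring
      rw [e1]
      field_simp
    rw [e]
    have h3 : (1 : ℝ) ≤ (1 + p) ^ 3 := one_le_pow₀ (by linarith)
    nlinarith
  have hivt := intermediate_value_Icc hw1pos.le hcont
  obtain ⟨w, hw, hwp⟩ := hivt
    (show p ∈ Set.Icc (Lam 0) (Lam (p / (1 + p))) from ⟨by rw [hL0]; exact hp.le, hL1⟩)
  refine ⟨w, ?_, lt_of_le_of_lt hw.2 hw1lt, hwp⟩
  rcases hw.1.lt_or_eq with h | h
  · exact h
  · exfalso
    rw [← h, hL0] at hwp
    linarith

/-- `Λ` restricted to `(0, 1)` has a smooth inverse defined on `(0, ∞)`. -/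
theorem exists_Lam_inv :
    ∃ J : ℝ → ℝ, ContDiffOn ℝ ∞ J (Set.Ioi 0) ∧
      ∀ p, 0 < p → 0 < J p ∧ J p < 1 ∧ Lam (J p) = p := by
  classical
  let J : ℝ → ℝ := fun p => if hp : 0 < p then Classical.choose (Lam_surj hp) else 0
  have hJ : ∀ p, 0 < p → 0 < J p ∧ J p < 1 ∧ Lam (J p) = p := by
    intro p hp
    have e : J p = Classical.choose (Lam_surj hp) := dif_pos hp
    rw [e]
    exact Classical.choose_spec (Lam_surj hp)
  have hinj : ∀ w, 0 < w → w < 1 → J (Lam w) = w := by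
    intro w h0 h1
    have hp := Lam_pos h0 h1
    obtain ⟨a0, a1, e⟩ := hJ _ hp
    rcases lt_trichotomy (J (Lam w)) w with h | h | h
    · have := Lam_lt_Lam a0 h h1
      rw [e] at this
      exact absurd this (lt_irrefl _)
    · exact h
    · have := Lam_lt_Lam h0 h a1
      rw [e] at this
      exact absurd this (lt_irrefl _)
  refine ⟨J, ?_, hJ⟩
  intro p0 hp0
  have hp0' : 0 < p0 := hp0
  obtain ⟨h0, h1, hL⟩ := hJ p0 hp0'
  have hsm : ContDiffAt ℝ ∞ Lam (J p0) := by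
    have h4 : (1 - J p0) ^ 4 ≠ 0 := pow_ne_zero 4 (by linarith)
    have : ContDiffAt ℝ ∞ (fun w : ℝ => w / (1 - w) ^ 4) (J p0) :=
      contDiffAt_id.div ((contDiffAt_const.sub contDiffAt_id).pow 4) h4
    exact this
  have hd := hasDerivAt_Lam (J p0) h1.ne
  have hc0 : (1 + 3 * J p0) / (1 - J p0) ^ 5 ≠ 0 := by
    have h5 : 0 < (1 - J p0) ^ 5 := pow_pos (by linarith) 5
    have h6 : 0 < (1 + 3 * J p0) / (1 - J p0) ^ 5 := div_pos (by linarith) h5
    exact h6.ne'
  have hstrict : HasStrictDerivAt Lam ((1 + 3 * J p0) / (1 - J p0) ^ 5) (J p0) :=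
    hsm.hasStrictDerivAt' hd (by simp)
  have hf' := (hstrict.hasStrictFDerivAt_equiv hc0).hasFDerivAt
  have hn : (∞ : WithTop ℕ∞) ≠ 0 := by simp
  have hloc := hsm.to_localInverse hf' hn
  have huniq := (hsm.hasStrictFDerivAt' hf' hn).localInverse_unique (g := J) (by
    filter_upwards [Ioo_mem_nhds h0 h1] with x hx
    exact hinj x hx.1 hx.2)
  rw [hL] at huniq hloc
  exact (hloc.congr_of_eventuallyEq huniq).contDiffWithinAt

/-- The inverse of `Λ` on `(0, ∞)`. -/
noncomputable def Jinv : ℝ → ℝ := Classical.choose exists_Lam_inv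

theorem contDiffOn_Jinv : ContDiffOn ℝ ∞ Jinv (Set.Ioi 0) :=
  (Classical.choose_spec exists_Lam_inv).1

theorem Jinv_pos {p : ℝ} (hp : 0 < p) : 0 < Jinv p :=
  ((Classical.choose_spec exists_Lam_inv).2 p hp).1

theorem Jinv_lt_one {p : ℝ} (hp : 0 < p) : Jinv p < 1 :=
  ((Classical.choose_spec exists_Lam_inv).2 p hp).2.1

theorem Lam_Jinv {p : ℝ} (hp : 0 < p) : Lam (Jinv p) = p :=
  ((Classical.choose_spec exists_Lam_inv).2 p hp).2.2

theorem Jinv_le_Jinv {p q : ℝ} (hp : 0 < p) (hpq : p ≤ q) : Jinv p ≤ Jinv q := by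
  by_contra hcon
  push_neg at hcon
  have hq : 0 < q := lt_of_lt_of_le hp hpq
  have h := Lam_lt_Lam (Jinv_pos hq) hcon (Jinv_lt_one hp)
  rw [Lam_Jinv hq, Lam_Jinv hp] at h
  linarith

theorem Jinv_Lam {w : ℝ} (h0 : 0 < w) (h1 : w < 1) : Jinv (Lam w) = w := by
  have hp : 0 < Lam w := Lam_pos h0 h1
  have e := Lam_Jinv hp
  rcases lt_trichotomy (Jinv (Lam w)) w with h | h | h
  · have := Lam_lt_Lam (Jinv_pos hp) h h1
    rw [e] at this
    exact absurd this (lt_irrefl _)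
  · exact h
  · have := Lam_lt_Lam h0 h (Jinv_lt_one hp)
    rw [e] at this
    exact absurd this (lt_irrefl _)

end Vale.Agent.H19.Sph
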